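import Mathlib
import Vale.Agent.Lib.P074.Defs

open MeasureTheory Metric Set Filter Topology
open scoped ENNReal NNReal

namespace Vale.Agent.Lib.P074

section Shift

set_option linter.unusedSectionVars false

variable {V : Type*} [NormedAddCommGroup V] [NormedSpace ℝ V] [FiniteDimensional ℝ V]
  [MeasurableSpace V] [BorelSpace V]
variable {n : ℕ}

/-- The piecewise translation: it moves the ball around `x i` onto the ball around `x (σ i)`
and fixes all other points. -/
noncomputable def shiftMap (x : Fin n → V) (σ : Equiv.Perm (Fin n)) (r : ℝ) (z : V) : V :=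
  z + ∑ i, (closedBall (x i) r).indicator (fun _ => x (σ i) - x i) z

lemma measurable_shiftMap (x : Fin n → V) (σ : Equiv.Perm (Fin n)) (r : ℝ) :
    Measurable (shiftMap x σ r) := by
  unfold shiftMap
  exact measurable_id.add
    (Finset.measurable_sum _ fun i _ => measurable_const.indicator measurableSet_closedBall)

lemma shiftMap_of_mem {x : Fin n → V} {σ : Equiv.Perm (Fin n)} {r : ℝ}
    (hd : Pairwise (Function.onFun Disjoint fun i => closedBall (x i) r)) {i : Fin n} {z : V}
    (hz : z ∈ closedBall (x i) r) : shiftMap x σ r z = z + (x (σ i) - x i) := by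
  unfold shiftMap
  congr 1
  rw [Finset.sum_eq_single i]
  · simp [hz]
  · intro j _ hj
    have : z ∉ closedBall (x j) r := fun hz' =>
      (Set.disjoint_left.1 (hd hj) hz') hz
    simp [this]
  · simp

lemma shiftMap_of_notMem {x : Fin n → V} {σ : Equiv.Perm (Fin n)} {r : ℝ} {z : V}
    (hz : ∀ i, z ∉ closedBall (x i) r) : shiftMap x σ r z = z := by
  unfold shiftMap
  simp [hz]

variable (vol : Measure V) [vol.IsAddHaarMeasure]

lemma preimage_add_closedBall' (c a : V) (r : ℝ) :
    (fun z => z + a) ⁻¹' closedBall (c + a) r = closedBall c r := by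
  ext z
  simp [dist_eq_norm]

lemma map_shiftMap_restrict {x : Fin n → V} {σ : Equiv.Perm (Fin n)} {r : ℝ} {K : Set V}
    (hK : MeasurableSet K) (hd : Pairwise (Function.onFun Disjoint fun i => closedBall (x i) r))
    (hsub : ∀ i, closedBall (x i) r ⊆ K) :
    (vol.restrict K).map (shiftMap x σ r) = vol.restrict K := by
  set U : Fin n → Set V := fun i => closedBall (x i) r with hU
  have hUm : ∀ i, MeasurableSet (U i) := fun i => measurableSet_closedBall
  set W : Set V := ⋃ i, U i with hW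
  have hWm : MeasurableSet W := MeasurableSet.iUnion hUm
  have hWK : W ⊆ K := iUnion_subset hsub
  have dec : vol.restrict K = vol.restrict (K \ W) + Measure.sum (fun i => vol.restrict (U i)) := by
    rw [← Measure.restrict_iUnion hd hUm, ← Measure.restrict_union Set.disjoint_sdiff_left hWm,
      Set.sdiff_union_of_subset hWK]
  have hπ := measurable_shiftMap x σ r
  have h0 : (vol.restrict (K \ W)).map (shiftMap x σ r) = vol.restrict (K \ W) := by
    have : shiftMap x σ r =ᵐ[vol.restrict (K \ W)] id := by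
      filter_upwards [ae_restrict_mem (hK.diff hWm)] with z hz
      apply shiftMap_of_notMem
      intro i hi
      exact hz.2 (mem_iUnion.2 ⟨i, hi⟩)
    rw [Measure.map_congr this, Measure.map_id]
  have h1 : ∀ i, (vol.restrict (U i)).map (shiftMap x σ r) = vol.restrict (U (σ i)) := by
    intro i
    have : shiftMap x σ r =ᵐ[vol.restrict (U i)] fun z => z + (x (σ i) - x i) := by
      filter_upwards [ae_restrict_mem (hUm i)] with z hz
      exact shiftMap_of_mem hd hz
    rw [Measure.map_congr this]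
    have hp := (measurePreserving_add_right vol (x (σ i) - x i)).restrict_preimage
      (s := closedBall (x (σ i)) r) measurableSet_closedBall
    have hpre : (fun z => z + (x (σ i) - x i)) ⁻¹' closedBall (x (σ i)) r = closedBall (x i) r := by
      ext z
      simp [dist_eq_norm]
    rw [hpre] at hp
    exact hp.map_eq
  conv_rhs => rw [dec]
  rw [dec, Measure.map_add _ _ hπ, h0, Measure.map_sum hπ.aemeasurable]
  congr 1
  simp_rw [h1]
  rw [Measure.sum_fintype, Measure.sum_fintype]
  exact Equiv.sum_comp σ (fun i => vol.restrict (U i))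

end Shift

section Main

variable {d : ℕ}

lemma integrableOn_of_bdd {f : EuclideanSpace ℝ (Fin d) → ℝ} (hf : Measurable f)
    {s : Set (EuclideanSpace ℝ (Fin d))} (hs : volume s ≠ ∞) (hsm : MeasurableSet s) {M : ℝ}
    (h : ∀ z ∈ s, ‖f z‖ ≤ M) : IntegrableOn f s :=
  Measure.integrableOn_of_bounded hs hf.aestronglyMeasurable
    ((ae_restrict_iff' hsm).2 (Eventually.of_forall h))

/-- Optimality against the competitor `T ∘ π`, for a volume preserving `π` of `K`. -/
lemma cost_compare {K : Set (EuclideanSpace ℝ (Fin d))} (hK : IsCompact K)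
    (hint : (interior K).Nonempty) {μ : Measure (EuclideanSpace ℝ (Fin d))}
    {T : EuclideanSpace ℝ (Fin d) → EuclideanSpace ℝ (Fin d)}
    (hT : IsOptimalMap (uniformProb K) μ T) {R L : ℝ} (hR : ∀ x, ‖T x‖ ≤ R)
    (hL : ∀ x ∈ K, ‖x‖ ≤ L) {π : EuclideanSpace ℝ (Fin d) → EuclideanSpace ℝ (Fin d)}
    (hπ : Measurable π) (hmap : (volume.restrict K).map π = volume.restrict K) :
    ∫ z in K, ‖z - T z‖ ^ 2 ≤ ∫ z in K, ‖z - T (π z)‖ ^ 2 := by
  obtain ⟨hTm, hTμ, hTopt⟩ := hT
  have hKm : MeasurableSet K := hK.measurableSet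
  have hvol : volume K ≠ ∞ := hK.measure_lt_top.ne
  have hvol0 : volume K ≠ 0 :=
    ((isOpen_interior.measure_pos volume hint).trans_le (measure_mono interior_subset)).ne'
  have hS : Measurable (T ∘ π) := hTm.comp hπ
  have hSμ : (uniformProb K).map (T ∘ π) = μ := by
    rw [← hTμ]
    unfold uniformProb
    rw [Measure.map_smul, Measure.map_smul, ← Measure.map_map hTm hπ, hmap]
  have h := hTopt _ hS hSμ
  unfold quadCost uniformProb at h
  rw [lintegral_smul_measure, lintegral_smul_measure] at h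
  have hc0 : (volume K)⁻¹ ≠ 0 := ENNReal.inv_ne_zero.2 hvol
  have hct : (volume K)⁻¹ ≠ ∞ := ENNReal.inv_ne_top.2 hvol0
  simp only [smul_eq_mul] at h
  have h' := (ENNReal.mul_le_mul_iff_right hc0 hct).1 h
  have hM : 0 ≤ R := (norm_nonneg _).trans (hR 0)
  have hb1 : ∀ z ∈ K, ‖‖z - T z‖ ^ 2‖ ≤ (L + R) ^ 2 := by
    intro z hz
    have h1 : ‖z - T z‖ ≤ L + R := (norm_sub_le _ _).trans (add_le_add (hL z hz) (hR _))
    rw [Real.norm_of_nonneg (by positivity)]
    exact pow_le_pow_left₀ (norm_nonneg _) h1 2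
  have hb2 : ∀ z ∈ K, ‖‖z - T (π z)‖ ^ 2‖ ≤ (L + R) ^ 2 := by
    intro z hz
    have h1 : ‖z - T (π z)‖ ≤ L + R := (norm_sub_le _ _).trans (add_le_add (hL z hz) (hR _))
    rw [Real.norm_of_nonneg (by positivity)]
    exact pow_le_pow_left₀ (norm_nonneg _) h1 2
  have hm1 : Measurable fun z => ‖z - T z‖ ^ 2 := ((measurable_id.sub hTm).norm).pow_const 2
  have hm2 : Measurable fun z => ‖z - T (π z)‖ ^ 2 := ((measurable_id.sub hS).norm).pow_const 2
  have hi1 : IntegrableOn (fun z => ‖z - T z‖ ^ 2) K := integrableOn_of_bdd hm1 hvol hKm hb1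
  have hi2 : IntegrableOn (fun z => ‖z - T (π z)‖ ^ 2) K := integrableOn_of_bdd hm2 hvol hKm hb2
  rw [integral_eq_lintegral_of_nonneg_ae (Eventually.of_forall fun _ => by positivity)
      hi1.aestronglyMeasurable,
    integral_eq_lintegral_of_nonneg_ae (Eventually.of_forall fun _ => by positivity)
      hi2.aestronglyMeasurable]
  apply ENNReal.toReal_mono _ h'
  exact (hi2.lintegral_lt_top).ne

lemma ball_sum_nonneg {K : Set (EuclideanSpace ℝ (Fin d))} (hK : IsCompact K)
    (hint : (interior K).Nonempty) {μ : Measure (EuclideanSpace ℝ (Fin d))}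
    {T : EuclideanSpace ℝ (Fin d) → EuclideanSpace ℝ (Fin d)}
    (hT : IsOptimalMap (uniformProb K) μ T) {R L : ℝ} (hR : ∀ x, ‖T x‖ ≤ R)
    (hL : ∀ x ∈ K, ‖x‖ ≤ L) {n : ℕ} {x : Fin n → EuclideanSpace ℝ (Fin d)}
    {σ : Equiv.Perm (Fin n)} {r : ℝ}
    (hd : Pairwise (Function.onFun Disjoint fun i => closedBall (x i) r))
    (hsub : ∀ i, closedBall (x i) r ⊆ K) :
    0 ≤ ∑ i, ∫ w in closedBall (x (σ i)) r,
      (2 * inner ℝ (T w - w) (x (σ i) - x i) + ‖x (σ i) - x i‖ ^ 2) := by
  have hKm : MeasurableSet K := hK.measurableSet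
  have hvol : volume K ≠ ∞ := hK.measure_lt_top.ne
  have hπ := measurable_shiftMap x σ r
  have hmap := map_shiftMap_restrict (σ := σ) volume hKm hd hsub
  have h0 := cost_compare hK hint hT hR hL hπ hmap
  have hTm := hT.1
  have hM : 0 ≤ R := (norm_nonneg _).trans (hR 0)
  have hS : Measurable (T ∘ shiftMap x σ r) := hTm.comp hπ
  have hm1 : Measurable fun z => ‖z - T z‖ ^ 2 := ((measurable_id.sub hTm).norm).pow_const 2
  have hm2 : Measurable fun z => ‖z - T (shiftMap x σ r z)‖ ^ 2 :=
    ((measurable_id.sub hS).norm).pow_const 2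
  have hb1 : ∀ z ∈ K, ‖‖z - T z‖ ^ 2‖ ≤ (L + R) ^ 2 := by
    intro z hz
    have h1 : ‖z - T z‖ ≤ L + R := (norm_sub_le _ _).trans (add_le_add (hL z hz) (hR _))
    rw [Real.norm_of_nonneg (by positivity)]
    exact pow_le_pow_left₀ (norm_nonneg _) h1 2
  have hb2 : ∀ z ∈ K, ‖‖z - T (shiftMap x σ r z)‖ ^ 2‖ ≤ (L + R) ^ 2 := by
    intro z hz
    have h1 : ‖z - T (shiftMap x σ r z)‖ ≤ L + R :=
      (norm_sub_le _ _).trans (add_le_add (hL z hz) (hR _))
    rw [Real.norm_of_nonneg (by positivity)]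
    exact pow_le_pow_left₀ (norm_nonneg _) h1 2
  have hi1 : IntegrableOn (fun z => ‖z - T z‖ ^ 2) K := integrableOn_of_bdd hm1 hvol hKm hb1
  have hi2 : IntegrableOn (fun z => ‖z - T (shiftMap x σ r z)‖ ^ 2) K :=
    integrableOn_of_bdd hm2 hvol hKm hb2
  have h1 : 0 ≤ ∫ z in K, (‖z - T (shiftMap x σ r z)‖ ^ 2 - ‖z - T z‖ ^ 2) := by
    rw [integral_sub hi2 hi1]
    linarith
  have hUm : ∀ i, MeasurableSet (closedBall (x i) r) := fun i => measurableSet_closedBall
  have hWK : (⋃ i, closedBall (x i) r) ⊆ K := iUnion_subset hsub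
  have h2 : ∫ z in K, (‖z - T (shiftMap x σ r z)‖ ^ 2 - ‖z - T z‖ ^ 2)
      = ∫ z in ⋃ i, closedBall (x i) r, (‖z - T (shiftMap x σ r z)‖ ^ 2 - ‖z - T z‖ ^ 2) := by
    refine setIntegral_eq_of_subset_of_forall_sdiff_eq_zero hKm hWK ?_
    intro z hz
    have : shiftMap x σ r z = z :=
      shiftMap_of_notMem fun i hi => hz.2 (mem_iUnion.2 ⟨i, hi⟩)
    simp [this]
  have h3 : ∫ z in ⋃ i, closedBall (x i) r, (‖z - T (shiftMap x σ r z)‖ ^ 2 - ‖z - T z‖ ^ 2)
      = ∑ i, ∫ z in closedBall (x i) r, (‖z - T (shiftMap x σ r z)‖ ^ 2 - ‖z - T z‖ ^ 2) :=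
    integral_iUnion_fintype hUm hd fun i => (hi2.sub hi1).mono_set (hsub i)
  have h4 : ∀ i, ∫ z in closedBall (x i) r, (‖z - T (shiftMap x σ r z)‖ ^ 2 - ‖z - T z‖ ^ 2)
      = (∫ w in closedBall (x (σ i)) r, ‖w - (x (σ i) - x i) - T w‖ ^ 2)
        - ∫ z in closedBall (x i) r, ‖z - T z‖ ^ 2 := by
    intro i
    rw [integral_sub (hi2.mono_set (hsub i)) (hi1.mono_set (hsub i))]
    congr 1
    have hmp := (measurePreserving_add_right (volume : Measure (EuclideanSpace ℝ (Fin d)))
      (x (σ i) - x i)).setIntegral_preimage_emb (measurableEmbedding_addRight (x (σ i) - x i))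
      (fun w => ‖w - (x (σ i) - x i) - T w‖ ^ 2) (closedBall (x (σ i)) r)
    have hpre : (fun z => z + (x (σ i) - x i)) ⁻¹' closedBall (x (σ i)) r = closedBall (x i) r := by
      ext z
      simp [dist_eq_norm]
    rw [hpre] at hmp
    rw [← hmp]
    refine setIntegral_congr_fun (hUm i) ?_
    intro z hz
    simp only [shiftMap_of_mem hd hz, add_sub_cancel_right]
  have h5 : ∑ i, ∫ z in closedBall (x i) r, ‖z - T z‖ ^ 2
      = ∑ i, ∫ z in closedBall (x (σ i)) r, ‖z - T z‖ ^ 2 :=
    (Equiv.sum_comp σ fun i => ∫ z in closedBall (x i) r, ‖z - T z‖ ^ 2).symm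
  have h6 : ∀ i, ∫ w in closedBall (x (σ i)) r,
        (2 * inner ℝ (T w - w) (x (σ i) - x i) + ‖x (σ i) - x i‖ ^ 2)
      = (∫ w in closedBall (x (σ i)) r, ‖w - (x (σ i) - x i) - T w‖ ^ 2)
        - ∫ z in closedBall (x (σ i)) r, ‖z - T z‖ ^ 2 := by
    intro i
    have hbd : ∀ z ∈ closedBall (x (σ i)) r,
        ‖‖z - (x (σ i) - x i) - T z‖ ^ 2‖ ≤ (L + ‖x (σ i) - x i‖ + R) ^ 2 := by
      intro z hz
      have hz' := hsub (σ i) hz
      have h1 : ‖z - (x (σ i) - x i) - T z‖ ≤ L + ‖x (σ i) - x i‖ + R :=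
        (norm_sub_le _ _).trans (add_le_add ((norm_sub_le _ _).trans
          (add_le_add_left (hL z hz') _)) (hR _))
      rw [Real.norm_of_nonneg (by positivity)]
      exact pow_le_pow_left₀ (norm_nonneg _) h1 2
    have hmm : Measurable fun z => ‖z - (x (σ i) - x i) - T z‖ ^ 2 :=
      (((measurable_id.sub_const _).sub hTm).norm).pow_const 2
    have hii : IntegrableOn (fun z => ‖z - (x (σ i) - x i) - T z‖ ^ 2)
        (closedBall (x (σ i)) r) :=
      integrableOn_of_bdd hmm measure_closedBall_lt_top.ne (hUm _) hbd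
    rw [← integral_sub hii (hi1.mono_set (hsub (σ i)))]
    refine setIntegral_congr_fun (hUm _) ?_
    intro w _
    have e1 : w - (x (σ i) - x i) - T w = (w - T w) - (x (σ i) - x i) := by abel
    have e2 : T w - w = -(w - T w) := by abel
    simp only [e1, e2, norm_sub_sq_real, inner_neg_left]
    ring
  calc (0 : ℝ) ≤ ∑ i, ∫ z in closedBall (x i) r,
        (‖z - T (shiftMap x σ r z)‖ ^ 2 - ‖z - T z‖ ^ 2) := by rw [← h3, ← h2]; exact h1
    _ = ∑ i, ((∫ w in closedBall (x (σ i)) r, ‖w - (x (σ i) - x i) - T w‖ ^ 2)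
        - ∫ z in closedBall (x i) r, ‖z - T z‖ ^ 2) := Finset.sum_congr rfl fun i _ => h4 i
    _ = ∑ i, ((∫ w in closedBall (x (σ i)) r, ‖w - (x (σ i) - x i) - T w‖ ^ 2)
        - ∫ z in closedBall (x (σ i)) r, ‖z - T z‖ ^ 2) := by
        rw [Finset.sum_sub_distrib, Finset.sum_sub_distrib, h5]
    _ = _ := Finset.sum_congr rfl fun i _ => (h6 i).symm

/-- Cyclical monotonicity at almost every point from optimality among maps. -/
theorem cyclic_ae {K Y : Set (EuclideanSpace ℝ (Fin d))} (hK : IsCompact K)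
    (hconv : Convex ℝ K) (hint : (interior K).Nonempty) (hY : IsCompact Y)
    {μ : Measure (EuclideanSpace ℝ (Fin d))}
    {T : EuclideanSpace ℝ (Fin d) → EuclideanSpace ℝ (Fin d)}
    (hT : IsOptimalMap (uniformProb K) μ T) (hTY : ∀ x, T x ∈ Y) :
    ∃ E : Set (EuclideanSpace ℝ (Fin d)), (∀ᵐ x ∂(volume.restrict K), x ∈ E) ∧
      ∀ (n : ℕ) (x : Fin n → EuclideanSpace ℝ (Fin d)) (σ : Equiv.Perm (Fin n)),
        Function.Injective x → (∀ i, x i ∈ E) →
        0 ≤ ∑ i, inner ℝ (x (σ i) - x i) (T (x (σ i))) := by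
  obtain ⟨R, hR⟩ := hY.isBounded.exists_norm_le
  obtain ⟨L, hL⟩ := hK.isBounded.exists_norm_le
  have hR' : ∀ x, ‖T x‖ ≤ R := fun x => hR _ (hTY x)
  have hTloc : LocallyIntegrable T volume := by
    rw [locallyIntegrable_iff]
    intro k hk
    exact Measure.integrableOn_of_bounded hk.measure_lt_top.ne hT.1.aestronglyMeasurable
      (ae_of_all _ hR')
  have hFloc : LocallyIntegrable (fun y => T y - y) volume :=
    hTloc.sub continuous_id.locallyIntegrable
  refine ⟨{x | x ∈ interior K ∧ Tendsto (fun r => ⨍ y in closedBall x r, (T y - y))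
      (𝓝[>] 0) (𝓝 (T x - x))}, ?_, ?_⟩
  · have h1 := IsUnifLocDoublingMeasure.ae_tendsto_average (μ := volume) hFloc 1
    have h2 : ∀ᵐ x ∂(volume.restrict K), x ∈ interior K := by
      have hfr : volume (frontier K) = 0 := hconv.addHaar_frontier volume
      have hnull : ∀ᵐ x ∂(volume : Measure (EuclideanSpace ℝ (Fin d))), x ∉ frontier K :=
        measure_eq_zero_iff_ae_notMem.1 hfr
      filter_upwards [ae_restrict_of_ae hnull, ae_restrict_mem hK.measurableSet] with x hx hxK
      by_contra hxi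
      exact hx ⟨subset_closure hxK, hxi⟩
    filter_upwards [ae_restrict_of_ae h1, h2] with x hx hx2
    refine ⟨hx2, ?_⟩
    refine hx (fun _ => x) id tendsto_id ?_
    filter_upwards [self_mem_nhdsWithin] with r hr
    have hr' : (0 : ℝ) < r := hr
    simp [hr'.le]
  · intro n x σ hinj hx
    have hJ : ∀ᶠ r in 𝓝[>] (0 : ℝ), 0 ≤ ∑ i,
        (2 * inner ℝ (⨍ y in closedBall (x (σ i)) r, (T y - y)) (x (σ i) - x i)
          + ‖x (σ i) - x i‖ ^ 2) := by
      have hsm : ∀ ε : ℝ, 0 < ε → ∀ᶠ r in 𝓝[>] (0 : ℝ), r < ε := fun ε hε =>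
        nhdsWithin_le_nhds (Iio_mem_nhds hε)
      have hr1 : ∀ᶠ r in 𝓝[>] (0 : ℝ), ∀ i, closedBall (x i) r ⊆ K := by
        rw [eventually_all]
        intro i
        obtain ⟨ε, hε, hsub⟩ :=
          Metric.nhds_basis_closedBall.mem_iff.1 (mem_interior_iff_mem_nhds.1 (hx i).1)
        filter_upwards [hsm ε hε] with r hr
        exact (closedBall_subset_closedBall hr.le).trans hsub
      have hr2 : ∀ᶠ r in 𝓝[>] (0 : ℝ), ∀ i j, i ≠ j → r + r < dist (x i) (x j) := by
        rw [eventually_all]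
        intro i
        rw [eventually_all]
        intro j
        by_cases hij : i = j
        · simp [hij]
        · have hpos : 0 < dist (x i) (x j) := dist_pos.2 (hinj.ne hij)
          filter_upwards [hsm _ (half_pos hpos)] with r hr _
          linarith
      filter_upwards [self_mem_nhdsWithin, hr1, hr2] with r hr0 hrK hrd
      have hr0' : (0 : ℝ) < r := hr0
      have hd : Pairwise (Function.onFun Disjoint fun i => closedBall (x i) r) :=
        fun i j hij => closedBall_disjoint_closedBall (hrd i j hij)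
      have h1 := ball_sum_nonneg (σ := σ) hK hint hT hR' hL hd hrK
      set v : ℝ := (volume : Measure (EuclideanSpace ℝ (Fin d))).real (closedBall 0 r) with hv
      have hvpos : 0 < v := by
        rw [hv, measureReal_def]
        exact ENNReal.toReal_pos (measure_closedBall_pos _ _ hr0').ne'
          measure_closedBall_lt_top.ne
      have hvc : ∀ c : EuclideanSpace ℝ (Fin d),
          (volume : Measure (EuclideanSpace ℝ (Fin d))).real (closedBall c r) = v := by
        intro c
        rw [hv, measureReal_def, measureReal_def, Measure.addHaar_closedBall_center]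
      have h2 : ∀ i, ∫ w in closedBall (x (σ i)) r,
            (2 * inner ℝ (T w - w) (x (σ i) - x i) + ‖x (σ i) - x i‖ ^ 2)
          = v * (2 * inner ℝ (⨍ y in closedBall (x (σ i)) r, (T y - y)) (x (σ i) - x i)
            + ‖x (σ i) - x i‖ ^ 2) := by
        intro i
        have hFint : IntegrableOn (fun y => T y - y) (closedBall (x (σ i)) r) :=
          hFloc.integrableOn_isCompact (isCompact_closedBall _ _)
        have hin : ∫ w in closedBall (x (σ i)) r, inner ℝ (T w - w) (x (σ i) - x i)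
            = inner ℝ (∫ w in closedBall (x (σ i)) r, (T w - w)) (x (σ i) - x i) := by
          rw [real_inner_comm, ← integral_inner hFint]
          exact integral_congr_ae (ae_of_all _ fun w => real_inner_comm _ _)
        have hint1 : IntegrableOn (fun w => inner ℝ (T w - w) (x (σ i) - x i))
            (closedBall (x (σ i)) r) := by
          exact Integrable.inner_const (𝕜 := ℝ) hFint (x (σ i) - x i)
        rw [integral_add (hint1.const_mul 2) (integrableOn_const measure_closedBall_lt_top.ne), integral_const_mul, hin,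
          setIntegral_const, setAverage_eq, hvc, real_inner_smul_left, smul_eq_mul]
        field_simp
      simp only [h2, ← Finset.mul_sum] at h1
      exact nonneg_of_mul_nonneg_right h1 hvpos
    have hlim : Tendsto (fun r : ℝ => ∑ i,
        (2 * inner ℝ (⨍ y in closedBall (x (σ i)) r, (T y - y)) (x (σ i) - x i)
          + ‖x (σ i) - x i‖ ^ 2)) (𝓝[>] 0)
        (𝓝 (∑ i, (2 * inner ℝ (T (x (σ i)) - x (σ i)) (x (σ i) - x i)
          + ‖x (σ i) - x i‖ ^ 2))) := by
      refine tendsto_finsetSum _ fun i _ => ?_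
      exact ((((hx (σ i)).2.inner tendsto_const_nhds).const_mul 2)).add tendsto_const_nhds
    have h0 := ge_of_tendsto hlim hJ
    have halg : ∀ i, 2 * inner ℝ (T (x (σ i)) - x (σ i)) (x (σ i) - x i) + ‖x (σ i) - x i‖ ^ 2
        = 2 * inner ℝ (x (σ i) - x i) (T (x (σ i))) + (‖x i‖ ^ 2 - ‖x (σ i)‖ ^ 2) := by
      intro i
      have e1 : inner ℝ (T (x (σ i)) - x (σ i)) (x (σ i) - x i)
          = inner ℝ (x (σ i) - x i) (T (x (σ i))) - inner ℝ (x (σ i)) (x (σ i) - x i) := by
        rw [inner_sub_left, real_inner_comm]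
      have e2 : inner ℝ (x (σ i)) (x (σ i) - x i)
          = ‖x (σ i)‖ ^ 2 - inner ℝ (x (σ i)) (x i) := by
        rw [inner_sub_right, real_inner_self_eq_norm_sq]
      rw [e1, e2, norm_sub_sq_real]
      ring
    simp only [halg] at h0
    rw [Finset.sum_add_distrib, Finset.sum_sub_distrib,
      Equiv.sum_comp σ (fun i => ‖x i‖ ^ 2), sub_self, add_zero, ← Finset.mul_sum] at h0
    linarith

end Main

end Vale.Agent.Lib.P074
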