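import Mathlib
import Vale.Agent.Lib.P074.Defs

open MeasureTheory Metric Set Filter Topology
open scoped ENNReal NNReal

namespace Vale.Agent.Lib.P074

variable {d : ℕ}

/-- A Lipschitz function separates two probability measures at most by `W2`. -/
theorem integral_sub_le_W2 {Y : Set (EuclideanSpace ℝ (Fin d))} (hY : IsCompact Y)
    {μ ν : Measure (EuclideanSpace ℝ (Fin d))} [IsProbabilityMeasure μ] [IsProbabilityMeasure ν]
    (hμ : μ Yᶜ = 0) (hν : ν Yᶜ = 0) {g : EuclideanSpace ℝ (Fin d) → ℝ} {L : ℝ} (hL : 0 ≤ L)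
    (hg : ∀ a b, g a - g b ≤ L * ‖a - b‖) :
    ENNReal.ofReal ((∫ y, g y ∂ν) - ∫ y, g y ∂μ) ≤ ENNReal.ofReal L * W2 μ ν := by
  classical
  set D : ℝ := (∫ y, g y ∂ν) - ∫ y, g y ∂μ with hD
  by_cases hDpos : D ≤ 0
  · rw [ENNReal.ofReal_of_nonpos hDpos]; exact bot_le
  push Not at hDpos
  -- continuity of g
  have hgabs : ∀ a b, |g a - g b| ≤ L * ‖a - b‖ := by
    intro a b
    rw [abs_le]
    constructor
    · have := hg b a
      rw [norm_sub_rev] at this
      linarith
    · exact hg a b
  have hgLip : LipschitzWith L.toNNReal g := by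
    refine LipschitzWith.of_dist_le_mul fun a b => ?_
    rw [Real.dist_eq, dist_eq_norm, Real.coe_toNNReal _ hL]
    exact hgabs a b
  have hgc : Continuous g := hgLip.continuous
  -- integrability under measures carried by Y
  have hint : ∀ {ρ : Measure (EuclideanSpace ℝ (Fin d))} [IsProbabilityMeasure ρ],
      ρ Yᶜ = 0 → Integrable g ρ := by
    intro ρ _ hρ
    obtain ⟨M, hM⟩ := (hY.image_of_continuousOn hgc.continuousOn).isBounded.exists_norm_le
    refine Integrable.of_bound hgc.aestronglyMeasurable M ?_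
    have : ∀ᵐ x ∂ρ, x ∈ Y := by
      rw [ae_iff]; exact hρ
    filter_upwards [this] with x hx
    exact hM _ (mem_image_of_mem g hx)
  have hLpos : 0 < L := by
    by_contra hL0
    have hL0' : L = 0 := le_antisymm (not_lt.mp hL0) hL
    have hconst : ∀ a b, g a = g b := by
      intro a b
      have := hgabs a b
      rw [hL0', zero_mul] at this
      have h0 := abs_nonpos_iff.mp this
      linarith
    have hDz : D = 0 := by
      rw [hD]
      have h1 : ∀ ρ : Measure (EuclideanSpace ℝ (Fin d)), IsProbabilityMeasure ρ →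
          (∫ y, g y ∂ρ) = g 0 := by
        intro ρ _
        have : (fun y => g y) = fun _ => g 0 := funext fun y => hconst y 0
        rw [this]
        simp
      rw [h1 ν inferInstance, h1 μ inferInstance, sub_self]
    linarith
  -- main inequality for one coupling
  have key : ∀ π : Measure (EuclideanSpace ℝ (Fin d) × EuclideanSpace ℝ (Fin d)),
      π.map Prod.fst = μ ∧ π.map Prod.snd = ν →
      ENNReal.ofReal ((D / L) ^ 2) ≤ ∫⁻ z, ENNReal.ofReal (‖z.1 - z.2‖ ^ 2) ∂π := by
    rintro π ⟨h1, h2⟩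
    have hπ : IsProbabilityMeasure π := by
      constructor
      have : (π.map Prod.fst) univ = π univ := by
        rw [Measure.map_apply measurable_fst MeasurableSet.univ]
        simp
      rw [← this, h1]
      exact measure_univ
    have hπ1 : ∀ᵐ z ∂π, z.1 ∈ Y := by
      rw [ae_iff]
      have : π.map Prod.fst Yᶜ = 0 := by rw [h1]; exact hμ
      rw [Measure.map_apply measurable_fst hY.measurableSet.compl] at this
      exact this
    have hπ2 : ∀ᵐ z ∂π, z.2 ∈ Y := by
      rw [ae_iff]
      have : π.map Prod.snd Yᶜ = 0 := by rw [h2]; exact hν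
      rw [Measure.map_apply measurable_snd hY.measurableSet.compl] at this
      exact this
    have hgν : Integrable (fun z : EuclideanSpace ℝ (Fin d) × EuclideanSpace ℝ (Fin d) => g z.2) π := by
      have : Integrable g (π.map Prod.snd) := by rw [h2]; exact hint hν
      exact (integrable_map_measure hgc.aestronglyMeasurable measurable_snd.aemeasurable).mp this
    have hgμ : Integrable (fun z : EuclideanSpace ℝ (Fin d) × EuclideanSpace ℝ (Fin d) => g z.1) π := by
      have : Integrable g (π.map Prod.fst) := by rw [h1]; exact hint hμ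
      exact (integrable_map_measure hgc.aestronglyMeasurable measurable_fst.aemeasurable).mp this
    have hiν : (∫ y, g y ∂ν) = ∫ z, g z.2 ∂π := by
      rw [← h2, integral_map measurable_snd.aemeasurable hgc.aestronglyMeasurable]
    have hiμ : (∫ y, g y ∂μ) = ∫ z, g z.1 ∂π := by
      rw [← h1, integral_map measurable_fst.aemeasurable hgc.aestronglyMeasurable]
    -- the distance function, bounded a.e.
    set f : EuclideanSpace ℝ (Fin d) × EuclideanSpace ℝ (Fin d) → ℝ := fun z => ‖z.1 - z.2‖ with hf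
    have hfc : Continuous f := by
      rw [hf]; fun_prop
    obtain ⟨R, hR⟩ := hY.isBounded.exists_norm_le
    have hfb : ∀ᵐ z ∂π, ‖f z‖ ≤ R + R := by
      filter_upwards [hπ1, hπ2] with z hz1 hz2
      rw [hf]
      simp only [norm_norm]
      calc ‖z.1 - z.2‖ ≤ ‖z.1‖ + ‖z.2‖ := norm_sub_le _ _
        _ ≤ R + R := add_le_add (hR _ hz1) (hR _ hz2)
    have hfi : Integrable f π := Integrable.of_bound hfc.aestronglyMeasurable _ hfb
    have hf2i : Integrable (fun z => f z ^ 2) π := by
      refine Integrable.of_bound (hfc.pow 2).aestronglyMeasurable ((R + R) ^ 2) ?_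
      filter_upwards [hfb] with z hz
      rw [norm_pow]
      exact pow_le_pow_left₀ (norm_nonneg _) hz 2
    -- D ≤ L t
    set t : ℝ := ∫ z, f z ∂π with ht
    have hDt : D ≤ L * t := by
      rw [hD, hiν, hiμ, ← integral_sub hgν hgμ, ht, ← integral_const_mul]
      refine integral_mono (hgν.sub hgμ) (hfi.const_mul L) fun z => ?_
      have := hg z.2 z.1
      simp only [hf]
      rw [norm_sub_rev] at this
      exact this
    -- t^2 ≤ ∫ f^2
    have ht2 : t ^ 2 ≤ ∫ z, f z ^ 2 ∂π := by
      have hnn : 0 ≤ ∫ z, (f z - t) ^ 2 ∂π := integral_nonneg fun z => sq_nonneg _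
      have hexp : (fun z => (f z - t) ^ 2) = fun z => f z ^ 2 - 2 * t * f z + t ^ 2 := by
        funext z; ring
      have hA : Integrable (fun z => f z ^ 2 - 2 * t * f z) π := hf2i.sub (hfi.const_mul _)
      rw [hexp, integral_add hA (integrable_const _),
        integral_sub hf2i (hfi.const_mul _), integral_const_mul, integral_const] at hnn
      simp only [probReal_univ, smul_eq_mul, one_mul] at hnn
      have : (∫ z, f z ∂π) = t := rfl
      rw [this] at hnn
      nlinarith
    have htnn : 0 ≤ t := integral_nonneg fun z => norm_nonneg _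
    have hDL : D / L ≤ t := by
      rw [div_le_iff₀ hLpos]; linarith
    have hDL0 : 0 ≤ D / L := (div_pos hDpos hLpos).le
    have hsq : (D / L) ^ 2 ≤ ∫ z, f z ^ 2 ∂π :=
      le_trans (pow_le_pow_left₀ hDL0 hDL 2) ht2
    calc ENNReal.ofReal ((D / L) ^ 2) ≤ ENNReal.ofReal (∫ z, f z ^ 2 ∂π) :=
          ENNReal.ofReal_le_ofReal hsq
      _ = ∫⁻ z, ENNReal.ofReal (f z ^ 2) ∂π :=
          ofReal_integral_eq_lintegral_ofReal hf2i (Eventually.of_forall fun z => sq_nonneg _)
  have hinf : ENNReal.ofReal ((D / L) ^ 2) ≤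
      ⨅ (π : Measure (EuclideanSpace ℝ (Fin d) × EuclideanSpace ℝ (Fin d)))
        (_ : π.map Prod.fst = μ ∧ π.map Prod.snd = ν),
        ∫⁻ z, ENNReal.ofReal (‖z.1 - z.2‖ ^ 2) ∂π :=
    le_iInf₂ key
  have hroot : ENNReal.ofReal (D / L) ≤ W2 μ ν := by
    have h12 : (0 : ℝ) < 1 / 2 := by norm_num
    have hDL0 : 0 ≤ D / L := (div_pos hDpos hLpos).le
    have : ENNReal.ofReal (D / L) = ENNReal.ofReal ((D / L) ^ 2) ^ (1 / 2 : ℝ) := by
      rw [ENNReal.ofReal_rpow_of_nonneg (sq_nonneg _) h12.le]
      congr 1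
      rw [← Real.sqrt_eq_rpow, Real.sqrt_sq hDL0]
    rw [this]
    unfold W2
    exact ENNReal.rpow_le_rpow hinf h12.le
  calc ENNReal.ofReal D = ENNReal.ofReal L * ENNReal.ofReal (D / L) := by
        rw [← ENNReal.ofReal_mul hL]
        congr 1
        field_simp
    _ ≤ ENNReal.ofReal L * W2 μ ν := by gcongr

end Vale.Agent.Lib.P074
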