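import Mathlib
import Vale.Agent.Lib.P074.Defs

open MeasureTheory Metric Set Filter Topology
open scoped ENNReal NNReal

namespace Vale.Agent.Lib.P074

variable {d : ℕ}

/-- Erosion of a convex body by a translation. -/
theorem volume_sdiff_translate_le {K : Set (EuclideanSpace ℝ (Fin d))} (hK : IsCompact K)
    (hconv : Convex ℝ K) {c : EuclideanSpace ℝ (Fin d)} {r : ℝ} (hr : 0 < r)
    (hball : closedBall c r ⊆ K) (h : EuclideanSpace ℝ (Fin d)) :
    volume (K \ ((fun x => x + h) ⁻¹' K)) ≤ ENNReal.ofReal (d * ‖h‖ / r) * volume K := by
  rcases eq_or_ne h 0 with rfl | hne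
  · simp
  have hnp : 0 < ‖h‖ := norm_pos_iff.mpr hne
  have hs0 : 0 < ‖h‖ / r := div_pos hnp hr
  have hcK : c ∈ K := hball (mem_closedBall_self hr.le)
  have hd : 1 ≤ d := by
    by_contra hd
    have hd0 : d = 0 := by omega
    subst hd0
    exact hne (Subsingleton.elim _ _)
  have hd' : (1 : ℝ) ≤ d := by exact_mod_cast hd
  have heq : (d : ℝ) * ‖h‖ / r = d * (‖h‖ / r) := by ring
  by_cases hs1 : 1 ≤ ‖h‖ / r
  · calc volume (K \ ((fun x => x + h) ⁻¹' K)) ≤ volume K := measure_mono sdiff_subset
      _ = 1 * volume K := (one_mul _).symm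
      _ ≤ _ := by
        gcongr
        rw [ENNReal.one_le_ofReal, heq]
        nlinarith
  · push Not at hs1
    set s := ‖h‖ / r with hs
    set l := 1 - s with hl
    have hl0 : 0 < l := by rw [hl]; linarith
    have hls : l + s = 1 := by rw [hl]; ring
    let H := AffineMap.homothety c l
    have hHapp : ∀ x, H x = l • x + s • c := by
      intro x
      simp only [H, AffineMap.homothety_apply, vsub_eq_sub, vadd_eq_add]
      have hsc : s • c = c - l • c := by
        rw [show s = 1 - l by rw [hl]; ring, sub_smul, one_smul]
      rw [smul_sub, hsc]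
      abel
    have hsub1 : H '' K ⊆ K := by
      rintro _ ⟨x, hx, rfl⟩
      rw [hHapp]
      exact hconv hx hcK hl0.le hs0.le hls
    have hsub2 : H '' K ⊆ (fun x => x + h) ⁻¹' K := by
      rintro _ ⟨x, hx, rfl⟩
      have hp : c + (1 / s) • h ∈ K := by
        apply hball
        rw [mem_closedBall, dist_eq_norm]
        rw [show c + (1 / s) • h - c = (1 / s) • h by abel, norm_smul, Real.norm_eq_abs,
          abs_of_pos (by positivity)]
        rw [hs]
        apply le_of_eq
        field_simp
      have := hconv hx hp hl0.le hs0.le hls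
      simp only [mem_preimage]
      convert this using 1
      rw [hHapp, smul_add, smul_smul, mul_one_div_cancel hs0.ne', one_smul]
      abel
    have hcomp : IsCompact (H '' K) := hK.image (AffineMap.homothety_continuous c l)
    have hmeas : MeasurableSet (H '' K) := hcomp.measurableSet
    have hfin : volume (H '' K) ≠ ∞ := hcomp.measure_lt_top.ne
    have hvol : volume (H '' K) = ENNReal.ofReal (l ^ d) * volume K := by
      rw [Measure.addHaar_image_homothety, finrank_euclideanSpace_fin,
        abs_of_pos (pow_pos hl0 d)]
    have hbern : 1 ≤ d * s + l ^ d := by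
      have := one_add_mul_le_pow (a := -s) (by linarith) d
      rw [show 1 + -s = l by rw [hl]; ring] at this
      linarith
    calc volume (K \ ((fun x => x + h) ⁻¹' K)) ≤ volume (K \ (H '' K)) :=
          measure_mono (sdiff_subset_sdiff_right hsub2)
      _ = volume K - volume (H '' K) := measure_sdiff hsub1 hmeas.nullMeasurableSet hfin
      _ ≤ ENNReal.ofReal (d * ‖h‖ / r) * volume K := by
          rw [tsub_le_iff_right, hvol, heq, ← add_mul, ← ENNReal.ofReal_add (by positivity)
            (by positivity)]
          calc volume K = 1 * volume K := (one_mul _).symm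
            _ ≤ _ := by
              gcongr
              rw [ENNReal.one_le_ofReal]
              exact hbern

end Vale.Agent.Lib.P074
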