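import Mathlib
import Vale.Agent.Lib.P074.Defs

open MeasureTheory Metric Set Filter Topology
open scoped ENNReal NNReal

namespace Vale.Agent.Lib.P074

namespace Rock

variable {H : Type*} [NormedAddCommGroup H] [InnerProductSpace ℝ H]

/-- Value of the chain starting at `a`, going through the points of `l` and ending at `z`:
the sum of the terms `⟪T p, q - p⟫` along consecutive points `p, q`. -/
noncomputable def pathVal (T : H → H) : H → List H → H → ℝ
  | a, [], z => inner ℝ (T a) (z - a)
  | a, b :: l, z => inner ℝ (T a) (b - a) + pathVal T b l z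

lemma pathVal_append (T : H → H) (a : H) (l₁ : List H) (b : H) (l₂ : List H) (z : H) :
    pathVal T a (l₁ ++ b :: l₂) z = pathVal T a l₁ b + pathVal T b l₂ z := by
  induction l₁ generalizing a with
  | nil => simp [pathVal]
  | cons c t ih => simp [pathVal, ih, add_assoc]

lemma pathVal_snoc (T : H → H) (a : H) (l : List H) (b z : H) :
    pathVal T a (l ++ [b]) z = pathVal T a l b + inner ℝ (T b) (z - b) := by
  rw [pathVal_append]; rfl

lemma pathVal_sub_le {E : Set H} {T : H → H} {R : ℝ} (hR : ∀ x ∈ E, ‖T x‖ ≤ R)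
    (a : H) (l : List H) (hE : ∀ p ∈ a :: l, p ∈ E) (z z' : H) :
    pathVal T a l z ≤ pathVal T a l z' + R * ‖z - z'‖ := by
  induction l generalizing a with
  | nil =>
    have ha : a ∈ E := hE a (by simp)
    have h1 : inner ℝ (T a) (z - a) = inner ℝ (T a) (z' - a) + inner ℝ (T a) (z - z') := by
      rw [← inner_add_right]; congr 1; abel
    have h2 : inner ℝ (T a) (z - z') ≤ ‖T a‖ * ‖z - z'‖ := real_inner_le_norm _ _
    have h3 : ‖T a‖ * ‖z - z'‖ ≤ R * ‖z - z'‖ :=
      mul_le_mul_of_nonneg_right (hR a ha) (norm_nonneg _)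
    simp only [pathVal]
    linarith
  | cons b t ih =>
    have := ih b (fun p hp => hE p (List.mem_cons_of_mem _ hp))
    simp only [pathVal]
    linarith

lemma pathVal_eq_sum (T : H → H) (a : H) (l : List H) (z : H) :
    pathVal T a l z =
      (∑ j : Fin l.length, inner ℝ (T ((a :: l).get j.castSucc))
          ((a :: l).get j.succ - (a :: l).get j.castSucc)) +
        inner ℝ (T ((a :: l).get (Fin.last _))) (z - (a :: l).get (Fin.last _)) := by
  induction l generalizing a with
  | nil => simp [pathVal]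
  | cons b t ih =>
    rw [pathVal, ih b]
    have hlen : (b :: t).length = t.length + 1 := rfl
    rw [show (∑ j : Fin (b :: t).length, inner ℝ (T ((a :: b :: t).get j.castSucc))
          ((a :: b :: t).get j.succ - (a :: b :: t).get j.castSucc)) =
        ∑ j : Fin (t.length + 1), inner ℝ (T ((a :: b :: t).get (Fin.castSucc j)))
          ((a :: b :: t).get (Fin.succ j) - (a :: b :: t).get (Fin.castSucc j)) from rfl]
    rw [Fin.sum_univ_succ]
    simp only [add_assoc]
    rfl

variable {E : Set H} {T : H → H}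

lemma cycle_nodup
    (hcyc : ∀ (n : ℕ) (x : Fin n → H) (σ : Equiv.Perm (Fin n)),
        Function.Injective x → (∀ i, x i ∈ E) →
        0 ≤ ∑ i, inner ℝ (x (σ i) - x i) (T (x (σ i))))
    (a : H) (l : List H) (hnd : (a :: l).Nodup) (hE : ∀ p ∈ a :: l, p ∈ E) :
    pathVal T a l a ≤ 0 := by
  let x : Fin (l.length + 1) → H := fun i => (a :: l).get i
  have hinj : Function.Injective x := List.nodup_iff_injective_get.mp hnd
  have hxE : ∀ i, x i ∈ E := fun i => hE _ (List.get_mem _ _)
  have h := hcyc _ x (finRotate _)⁻¹ hinj hxE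
  have h2 : ∑ i, inner ℝ (x ((finRotate _)⁻¹ i) - x i) (T (x ((finRotate _)⁻¹ i))) =
      ∑ j, inner ℝ (x j - x (finRotate _ j)) (T (x j)) := by
    rw [← Equiv.sum_comp ((finRotate (l.length + 1))⁻¹)
      (fun j => inner ℝ (x j - x (finRotate _ j)) (T (x j)))]
    refine Finset.sum_congr rfl fun i _ => ?_
    simp
  rw [h2, Fin.sum_univ_castSucc, finRotate_last] at h
  have h3 : ∀ j : Fin l.length, finRotate (l.length + 1) j.castSucc = j.succ := by
    intro j
    rw [finRotate_apply, Fin.coeSucc_eq_succ]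
  simp only [h3] at h
  rw [pathVal_eq_sum]
  have h4 : ∀ j : Fin l.length, inner ℝ (T (x j.castSucc)) (x j.succ - x j.castSucc) =
      - inner ℝ (x j.castSucc - x j.succ) (T (x j.castSucc)) := by
    intro j
    rw [real_inner_comm, ← inner_neg_left, neg_sub]
  have h5 : inner ℝ (T (x (Fin.last _))) (a - x (Fin.last _)) =
      - inner ℝ (x (Fin.last _) - x 0) (T (x (Fin.last _))) := by
    rw [real_inner_comm, ← inner_neg_left, neg_sub]
    rfl
  have h6 : (∑ j : Fin l.length, inner ℝ (T (x j.castSucc)) (x j.succ - x j.castSucc)) =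
      - ∑ j : Fin l.length, inner ℝ (x j.castSucc - x j.succ) (T (x j.castSucc)) := by
    rw [← Finset.sum_neg_distrib]
    exact Finset.sum_congr rfl fun j _ => h4 j
  change (∑ j : Fin l.length, inner ℝ (T (x j.castSucc)) (x j.succ - x j.castSucc)) +
    inner ℝ (T (x (Fin.last _))) (a - x (Fin.last _)) ≤ 0
  rw [h5, h6]
  linarith

/-- A list which is not duplicate free has a repeated entry. -/
lemma exists_split_of_not_nodup {α : Type*} (l : List α) (h : ¬ l.Nodup) :
    ∃ (l₁ l₂ l₃ : List α) (b : α), l = l₁ ++ b :: l₂ ++ b :: l₃ := by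
  induction l with
  | nil => simp at h
  | cons a t ih =>
    by_cases hmem : a ∈ t
    · obtain ⟨s, u, hsu⟩ := List.append_of_mem hmem
      exact ⟨[], s, u, a, by simp [hsu]⟩
    · have ht : ¬ t.Nodup := fun hnd => h (List.nodup_cons.mpr ⟨hmem, hnd⟩)
      obtain ⟨l₁, l₂, l₃, b, rfl⟩ := ih ht
      exact ⟨a :: l₁, l₂, l₃, b, by simp⟩

/-- All closed chains in `E` have nonpositive value. -/
lemma cycle_le_zero
    (hcyc : ∀ (n : ℕ) (x : Fin n → H) (σ : Equiv.Perm (Fin n)),
        Function.Injective x → (∀ i, x i ∈ E) →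
        0 ≤ ∑ i, inner ℝ (x (σ i) - x i) (T (x (σ i))))
    (a : H) (l : List H) (hE : ∀ p ∈ a :: l, p ∈ E) :
    pathVal T a l a ≤ 0 := by
  induction hn : l.length using Nat.strong_induction_on generalizing a l with
  | _ n ih =>
    by_cases hnd : (a :: l).Nodup
    · exact cycle_nodup hcyc a l hnd hE
    · obtain ⟨l₁, l₂, l₃, b, hsplit⟩ := exists_split_of_not_nodup _ hnd
      cases l₁ with
      | nil =>
        simp only [List.nil_append, List.cons_append, List.cons.injEq] at hsplit
        obtain ⟨rfl, rfl⟩ := hsplit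
        rw [pathVal_append]
        have h1 := ih l₂.length (by simp at hn ⊢; omega) a l₂
          (fun p hp => hE p (by
            simp only [List.mem_cons, List.mem_append] at hp ⊢
            tauto)) rfl
        have h2 := ih l₃.length (by simp at hn ⊢; omega) a l₃
          (fun p hp => hE p (by
            simp only [List.mem_cons, List.mem_append] at hp ⊢
            tauto)) rfl
        linarith
      | cons c s =>
        simp only [List.cons_append, List.cons.injEq] at hsplit
        obtain ⟨rfl, rfl⟩ := hsplit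
        have hs : s ++ b :: l₂ ++ b :: l₃ = s ++ b :: (l₂ ++ b :: l₃) := by simp
        rw [hs] at hE hn ⊢
        rw [pathVal_append, pathVal_append]
        have h1 := ih (s ++ b :: l₃).length (by simp at hn ⊢; omega) a (s ++ b :: l₃)
          (fun p hp => hE p (by
            simp only [List.mem_cons, List.mem_append] at hp ⊢
            tauto)) rfl
        have h2 := ih l₂.length (by simp at hn ⊢; omega) b l₂
          (fun p hp => hE p (by
            simp only [List.mem_cons, List.mem_append] at hp ⊢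
            tauto)) rfl
        rw [pathVal_append] at h1
        linarith

end Rock

variable {d : ℕ}

/-- The Rockafellar potential of a cyclically monotone bounded map. -/
theorem exists_potential {E : Set (EuclideanSpace ℝ (Fin d))}
    {T : EuclideanSpace ℝ (Fin d) → EuclideanSpace ℝ (Fin d)} {R : ℝ}
    (hE : E.Nonempty) (hR : ∀ x ∈ E, ‖T x‖ ≤ R)
    (hcyc : ∀ (n : ℕ) (x : Fin n → EuclideanSpace ℝ (Fin d)) (σ : Equiv.Perm (Fin n)),
        Function.Injective x → (∀ i, x i ∈ E) →
        0 ≤ ∑ i, inner ℝ (x (σ i) - x i) (T (x (σ i)))) :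
    ∃ φ : EuclideanSpace ℝ (Fin d) → ℝ, Continuous φ ∧
      ∀ x ∈ E, ∀ z, φ x + inner ℝ (T x) (z - x) ≤ φ z := by
  classical
  obtain ⟨x₀, hx₀⟩ := hE
  have hR0 : 0 ≤ R := (norm_nonneg _).trans (hR x₀ hx₀)
  -- the admissible chains
  let C := {l : List (EuclideanSpace ℝ (Fin d)) // ∀ p ∈ x₀ :: l, p ∈ E}
  have : Nonempty C := ⟨⟨[], by simpa using hx₀⟩⟩
  let v : C → EuclideanSpace ℝ (Fin d) → ℝ := fun l z => Rock.pathVal T x₀ l.1 z
  have hbound : ∀ (l : C) (z), v l z ≤ R * ‖z - x₀‖ := by
    intro l z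
    have h1 := Rock.pathVal_sub_le hR x₀ l.1 l.2 z x₀
    have h2 := Rock.cycle_le_zero hcyc x₀ l.1 l.2
    simp only [v]
    linarith
  have hbdd : ∀ z, BddAbove (range fun l : C => v l z) := fun z =>
    ⟨R * ‖z - x₀‖, by rintro _ ⟨l, rfl⟩; exact hbound l z⟩
  refine ⟨fun z => ⨆ l : C, v l z, ?_, ?_⟩
  · have hlip : LipschitzWith (Real.toNNReal R) (fun z => ⨆ l : C, v l z) := by
      apply LipschitzWith.of_le_add_mul
      intro z z'
      refine ciSup_le fun l => ?_
      have h1 := Rock.pathVal_sub_le hR x₀ l.1 l.2 z z'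
      have h2 : v l z' ≤ ⨆ l : C, v l z' := le_ciSup (hbdd z') l
      rw [Real.coe_toNNReal _ hR0, dist_eq_norm]
      simp only [v] at h2 ⊢
      linarith
    exact hlip.continuous
  · intro x hx z
    have hxE : ∀ l : C, ∀ p ∈ x₀ :: (l.1 ++ [x]), p ∈ E := by
      intro l p hp
      simp only [List.mem_cons, List.mem_append, List.not_mem_nil, or_false] at hp
      rcases hp with rfl | hp | rfl
      · exact hx₀
      · exact l.2 p (List.mem_cons_of_mem _ hp)
      · exact hx
    have key : ∀ l : C, v l x + inner ℝ (T x) (z - x) ≤ ⨆ l : C, v l z := by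
      intro l
      have h := le_ciSup (hbdd z) (⟨l.1 ++ [x], hxE l⟩ : C)
      simp only [v, Rock.pathVal_snoc] at h ⊢
      exact h
    have : (⨆ l : C, v l x) ≤ (⨆ l : C, v l z) - inner ℝ (T x) (z - x) :=
      ciSup_le fun l => by linarith [key l]
    simp only
    linarith

/-- The Legendre conjugate on a compact set. -/
theorem exists_legendre {K : Set (EuclideanSpace ℝ (Fin d))} (hK : IsCompact K)
    (hne : K.Nonempty) {φ : EuclideanSpace ℝ (Fin d) → ℝ} (hφ : Continuous φ) {L : ℝ}
    (hL : ∀ x ∈ K, ‖x‖ ≤ L) :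
    ∃ ψ : EuclideanSpace ℝ (Fin d) → ℝ,
      (∀ a b, ψ a - ψ b ≤ L * ‖a - b‖) ∧ (∀ x ∈ K, ∀ y, inner ℝ x y ≤ φ x + ψ y) ∧
      (∀ x ∈ K, ∀ y, (∀ z ∈ K, φ x + inner ℝ y (z - x) ≤ φ z) → φ x + ψ y = inner ℝ x y) := by
  have hcont : ∀ y, Continuous (fun z : EuclideanSpace ℝ (Fin d) => inner ℝ z y - φ z) := by
    intro y
    exact (continuous_id.inner continuous_const).sub hφ
  have hbdd : ∀ y, BddAbove ((fun z : EuclideanSpace ℝ (Fin d) => inner ℝ z y - φ z) '' K) :=
    fun y => (hK.image (hcont y)).bddAbove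
  have hnon : ∀ y, ((fun z : EuclideanSpace ℝ (Fin d) => inner ℝ z y - φ z) '' K).Nonempty :=
    fun y => hne.image _
  refine ⟨fun y => sSup ((fun z : EuclideanSpace ℝ (Fin d) => inner ℝ z y - φ z) '' K), ?_, ?_, ?_⟩
  · intro a b
    have : sSup ((fun z : EuclideanSpace ℝ (Fin d) => inner ℝ z a - φ z) '' K) ≤
        sSup ((fun z : EuclideanSpace ℝ (Fin d) => inner ℝ z b - φ z) '' K) + L * ‖a - b‖ := by
      refine csSup_le (hnon a) ?_
      rintro _ ⟨z, hz, rfl⟩
      have h1 : inner ℝ z b - φ z ≤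
          sSup ((fun z : EuclideanSpace ℝ (Fin d) => inner ℝ z b - φ z) '' K) :=
        le_csSup (hbdd b) ⟨z, hz, rfl⟩
      have h2 : inner ℝ z (a - b) ≤ ‖z‖ * ‖a - b‖ := real_inner_le_norm _ _
      have h3 : ‖z‖ * ‖a - b‖ ≤ L * ‖a - b‖ :=
        mul_le_mul_of_nonneg_right (hL z hz) (norm_nonneg _)
      have h4 : inner ℝ z a = inner ℝ z b + inner ℝ z (a - b) := by
        rw [← inner_add_right]; congr 1; abel
      simp only
      linarith
    simp only
    linarith
  · intro x hx y
    have h1 : inner ℝ x y - φ x ≤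
        sSup ((fun z : EuclideanSpace ℝ (Fin d) => inner ℝ z y - φ z) '' K) :=
      le_csSup (hbdd y) ⟨x, hx, rfl⟩
    simp only
    linarith
  · intro x hx y hsub
    have h1 : inner ℝ x y - φ x ≤
        sSup ((fun z : EuclideanSpace ℝ (Fin d) => inner ℝ z y - φ z) '' K) :=
      le_csSup (hbdd y) ⟨x, hx, rfl⟩
    have h2 : sSup ((fun z : EuclideanSpace ℝ (Fin d) => inner ℝ z y - φ z) '' K) ≤
        inner ℝ x y - φ x := by
      refine csSup_le (hnon y) ?_
      rintro _ ⟨z, hz, rfl⟩
      have h3 := hsub z hz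
      have h4 : inner ℝ y (z - x) = inner ℝ z y - inner ℝ x y := by
        rw [inner_sub_right, real_inner_comm y z, real_inner_comm y x]
      simp only
      linarith
    simp only
    linarith

end Vale.Agent.Lib.P074
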