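import Mathlib
import Vale.Agent.Lib.P074.Defs
import Vale.Agent.Lib.P074.Q.Erosion

open MeasureTheory Metric Set Filter Topology
open scoped ENNReal NNReal

namespace Vale.Agent.Lib.P074

variable {d : ℕ}

/-- Shifting the integration domain: if `A` and its translate by `h` both lie in `K`, then the
integral over `A` of the translated function is close to the integral over `K`. -/
lemma abs_setIntegral_shift_sub_le {K A : Set (EuclideanSpace ℝ (Fin d))}
    (hKfin : volume K ≠ ∞) (hA : MeasurableSet A) (hAK : A ⊆ K)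
    (h : EuclideanSpace ℝ (Fin d)) (hAh : ∀ x ∈ A, x + h ∈ K)
    {f : EuclideanSpace ℝ (Fin d) → ℝ} (hf : Measurable f) {R : ℝ} (hR : ∀ x, |f x| ≤ R) :
    |(∫ x in A, f (x + h)) - ∫ x in K, f x| ≤ R * (volume (K \ A)).toReal := by
  -- the translated set
  set B : Set (EuclideanSpace ℝ (Fin d)) := (fun x => x + (-h)) ⁻¹' A with hB
  have hmp : MeasurePreserving (fun x : EuclideanSpace ℝ (Fin d) => x + h) volume volume :=
    measurePreserving_add_right volume h
  have hmpn : MeasurePreserving (fun x : EuclideanSpace ℝ (Fin d) => x + (-h)) volume volume :=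
    measurePreserving_add_right volume (-h)
  have hBmeas : MeasurableSet B := hmpn.measurable hA
  have hBK : B ⊆ K := by
    intro y hy
    have := hAh _ hy
    simpa using this
  have hpre : (fun x : EuclideanSpace ℝ (Fin d) => x + h) ⁻¹' B = A := by
    ext x
    simp [hB]
  have hint1 : ∫ x in A, f (x + h) = ∫ y in B, f y := by
    have := hmp.setIntegral_preimage_emb (measurableEmbedding_addRight h) f B
    rwa [hpre] at this
  have hvolB : volume B = volume A := hmpn.measure_preimage hA.nullMeasurableSet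
  have hAfin : volume A ≠ ∞ := ne_top_of_le_ne_top hKfin (measure_mono hAK)
  have hBfin : volume B ≠ ∞ := hvolB ▸ hAfin
  have hbd : ∀ x, ‖f x‖ ≤ R := fun x => by simpa [Real.norm_eq_abs] using hR x
  have hintK : IntegrableOn f K volume :=
    Measure.integrableOn_of_bounded hKfin hf.aestronglyMeasurable
      (Eventually.of_forall hbd)
  have hdiff : ∫ x in K \ B, f x = (∫ x in K, f x) - ∫ x in B, f x :=
    setIntegral_sdiff hBmeas hintK hBK
  have hvoldiff : volume (K \ B) = volume (K \ A) := by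
    rw [measure_sdiff hBK hBmeas.nullMeasurableSet hBfin,
      measure_sdiff hAK hA.nullMeasurableSet hAfin, hvolB]
  have hbound : ‖∫ x in K \ B, f x‖ ≤ R * (volume (K \ A)).toReal := by
    have := norm_setIntegral_le_of_norm_le_const (μ := volume) (s := K \ B) (f := f) (C := R)
      (lt_top_iff_ne_top.mpr (ne_top_of_le_ne_top hKfin (measure_mono sdiff_subset)))
      (fun x _ => hbd x)
    simpa [Measure.real, hvoldiff] using this
  rw [hint1]
  have : |(∫ x in B, f x) - ∫ x in K, f x| = ‖∫ x in K \ B, f x‖ := by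
    rw [hdiff, Real.norm_eq_abs, abs_sub_comm]
  rw [this]
  exact hbound

/-- The pointwise stencil inequality. -/
lemma stencil_pointwise {t a b c d' G : ℝ} (ht : 0 < t)
    (h1 : t * (a - b) ≤ G) (h2 : - (t * (a - d')) ≤ G) (h3 : 0 ≤ b - c) (h4 : 0 ≤ c - d') :
    t * |a - c| ≤ G + t * (b - d') := by
  have h5 : 0 ≤ t * (b - c) := mul_nonneg ht.le h3
  have h6 : 0 ≤ t * (c - d') := mul_nonneg ht.le h4
  rcases abs_cases (a - c) with ⟨h7, _⟩ | ⟨h7, _⟩ <;> rw [h7] <;> nlinarith

/-- The stencil estimate. -/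
theorem stencil_bound {K : Set (EuclideanSpace ℝ (Fin d))} (hK : IsCompact K)
    (hconv : Convex ℝ K) {c : EuclideanSpace ℝ (Fin d)} {r : ℝ} (hr : 0 < r)
    (hball : closedBall c r ⊆ K) {T₀ T₁ : EuclideanSpace ℝ (Fin d) → EuclideanSpace ℝ (Fin d)}
    (hT₀ : Measurable T₀) (hT₁ : Measurable T₁) {R : ℝ}
    (hR₀ : ∀ x, ‖T₀ x‖ ≤ R) (hR₁ : ∀ x, ‖T₁ x‖ ≤ R)
    {φ ψ : EuclideanSpace ℝ (Fin d) → ℝ} (hφ : Continuous φ) (hψ : Continuous ψ)
    (hφψ : ∀ x ∈ K, ∀ y, inner ℝ x y ≤ φ x + ψ y)
    (hsub : ∀ᵐ x ∂(volume.restrict K), ∀ z, φ x + inner ℝ (T₀ x) (z - x) ≤ φ z)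
    {e : EuclideanSpace ℝ (Fin d)} (he : ‖e‖ = 1) {t : ℝ} (ht : 0 < t) :
    t * ∫ x in K, |inner ℝ e (T₁ x - T₀ x)| ≤
      (∫ x in K, (φ x + ψ (T₁ x) - inner ℝ x (T₁ x))) +
        8 * R * d * (volume K).toReal / r * t ^ 2 := by
  have hKm : MeasurableSet K := hK.measurableSet
  have hKfin : volume K ≠ ∞ := hK.measure_lt_top.ne
  have hR0 : 0 ≤ R := (norm_nonneg _).trans (hR₀ 0)
  set h : EuclideanSpace ℝ (Fin d) := t • e with hh
  have hnorm : ‖h‖ = t := by rw [hh, norm_smul, he, mul_one, Real.norm_eq_abs, abs_of_pos ht]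
  have hnorm' : ‖-h‖ = t := by rw [norm_neg, hnorm]
  -- the eroded set
  set A₁ : Set (EuclideanSpace ℝ (Fin d)) := (fun x => x + h) ⁻¹' K with hA₁
  set A₂ : Set (EuclideanSpace ℝ (Fin d)) := (fun x => x + (-h)) ⁻¹' K with hA₂
  set A : Set (EuclideanSpace ℝ (Fin d)) := K ∩ (A₁ ∩ A₂) with hA
  have hA₁m : MeasurableSet A₁ := (measurable_add_const h) hKm
  have hA₂m : MeasurableSet A₂ := (measurable_add_const (-h)) hKm
  have hAm : MeasurableSet A := hKm.inter (hA₁m.inter hA₂m)
  have hAK : A ⊆ K := inter_subset_left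
  -- functions
  set f : EuclideanSpace ℝ (Fin d) → ℝ := fun x => inner ℝ e (T₀ x) with hf
  set u : EuclideanSpace ℝ (Fin d) → ℝ := fun x => |inner ℝ e (T₁ x - T₀ x)| with hu
  set G : EuclideanSpace ℝ (Fin d) → ℝ := fun x => φ x + ψ (T₁ x) - inner ℝ x (T₁ x) with hG
  have hfm : Measurable f := by
    exact (measurable_const.inner hT₀)
  have hum : Measurable u := by
    exact ((measurable_const.inner (hT₁.sub hT₀))).abs
  have hGm : Measurable G := by
    exact (hφ.measurable.add (hψ.measurable.comp hT₁)).sub (measurable_id.inner hT₁)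
  have hfb : ∀ x, |f x| ≤ R := by
    intro x
    have := abs_real_inner_le_norm e (T₀ x)
    rw [he, one_mul] at this
    exact this.trans (hR₀ x)
  have hub : ∀ x, ‖u x‖ ≤ 2 * R := by
    intro x
    have h1 := abs_real_inner_le_norm e (T₁ x - T₀ x)
    rw [he, one_mul] at h1
    have h2 := norm_sub_le (T₁ x) (T₀ x)
    simp only [hu, Real.norm_eq_abs, abs_abs]
    linarith [hR₀ x, hR₁ x]
  -- G is bounded on K
  obtain ⟨Mφ, hMφ⟩ := (hK.image hφ).isBounded.exists_norm_le
  obtain ⟨Mψ, hMψ⟩ := ((isCompact_closedBall (0 : EuclideanSpace ℝ (Fin d)) R).image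
    hψ).isBounded.exists_norm_le
  obtain ⟨ML, hML⟩ := hK.isBounded.exists_norm_le
  have hGb : ∀ x ∈ K, ‖G x‖ ≤ Mφ + Mψ + ML * R := by
    intro x hx
    have h1 := hMφ _ ⟨x, hx, rfl⟩
    have h2 := hMψ _ ⟨T₁ x, by simpa [mem_closedBall, dist_eq_norm] using hR₁ x, rfl⟩
    have h3 : ‖(inner ℝ x (T₁ x) : ℝ)‖ ≤ ‖x‖ * ‖T₁ x‖ := norm_inner_le_norm x (T₁ x)
    have h4 : ‖x‖ * ‖T₁ x‖ ≤ ML * R :=
      mul_le_mul (hML x hx) (hR₁ x) (norm_nonneg _) ((norm_nonneg _).trans (hML x hx))
    calc ‖G x‖ = ‖φ x + ψ (T₁ x) - inner ℝ x (T₁ x)‖ := rfl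
      _ ≤ ‖φ x‖ + ‖ψ (T₁ x)‖ + ‖(inner ℝ x (T₁ x) : ℝ)‖ := by
          refine (norm_sub_le _ _).trans ?_
          gcongr
          exact norm_add_le _ _
      _ ≤ _ := by linarith
  have hGint : IntegrableOn G K volume :=
    Measure.integrableOn_of_bounded hKfin hGm.aestronglyMeasurable
      ((ae_restrict_iff' hKm).mpr (Eventually.of_forall hGb))
  have huint : IntegrableOn u K volume :=
    Measure.integrableOn_of_bounded hKfin hum.aestronglyMeasurable
      (Eventually.of_forall hub)
  have hfint : ∀ S : Set (EuclideanSpace ℝ (Fin d)), volume S ≠ ∞ → IntegrableOn f S volume := by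
    intro S hS
    exact Measure.integrableOn_of_bounded hS hfm.aestronglyMeasurable
      (M := R) (Eventually.of_forall fun x => by simpa [Real.norm_eq_abs] using hfb x)
  have hAfin : volume A ≠ ∞ := ne_top_of_le_ne_top hKfin (measure_mono hAK)
  have hGnn : ∀ x ∈ K, 0 ≤ G x := by
    intro x hx
    have := hφψ x hx (T₁ x)
    simp only [hG]
    linarith
  -- almost everywhere statements
  have hsub' : ∀ᵐ y ∂(volume : Measure (EuclideanSpace ℝ (Fin d))), y ∈ K →
      ∀ z, φ y + inner ℝ (T₀ y) (z - y) ≤ φ z := (ae_restrict_iff' hKm).mp hsub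
  have hsub₁ : ∀ᵐ x ∂(volume : Measure (EuclideanSpace ℝ (Fin d))), x + h ∈ K →
      ∀ z, φ (x + h) + inner ℝ (T₀ (x + h)) (z - (x + h)) ≤ φ z :=
    (measurePreserving_add_right volume h).quasiMeasurePreserving.ae hsub'
  have hsub₂ : ∀ᵐ x ∂(volume : Measure (EuclideanSpace ℝ (Fin d))), x + (-h) ∈ K →
      ∀ z, φ (x + (-h)) + inner ℝ (T₀ (x + (-h))) (z - (x + (-h))) ≤ φ z :=
    (measurePreserving_add_right volume (-h)).quasiMeasurePreserving.ae hsub'
  -- the pointwise inequality
  have hpt : ∀ᵐ x ∂(volume.restrict A), t * u x ≤ G x + t * (f (x + h) - f (x + (-h))) := by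
    rw [ae_restrict_iff' hAm]
    filter_upwards [hsub', hsub₁, hsub₂] with x h0 h1 h2 hx
    obtain ⟨hxK, hx₁, hx₂⟩ := hx
    have hx₁' : x + h ∈ K := hx₁
    have hx₂' : x + (-h) ∈ K := hx₂
    have g0 := h0 hxK
    have g1 := h1 hx₁'
    have g2 := h2 hx₂'
    -- conjugate inequalities
    have e1 : x - (x + h) = -(t • e) := by rw [hh]; abel
    have e2 : x - (x + (-h)) = t • e := by rw [hh]; abel
    have e3 : x + h - x = t • e := by rw [hh]; abel
    have e4 : x + (-h) - x = -(t • e) := by rw [hh]; abel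
    have s1 : φ (x + h) - t * inner ℝ e (T₀ (x + h)) ≤ φ x := by
      have := g1 x
      rw [e1, inner_neg_right, inner_smul_right, real_inner_comm] at this
      linarith
    have s2 : φ (x + (-h)) + t * inner ℝ e (T₀ (x + (-h))) ≤ φ x := by
      have := g2 x
      rw [e2, inner_smul_right, real_inner_comm] at this
      linarith
    have s3 : φ x + t * inner ℝ e (T₀ x) ≤ φ (x + h) := by
      have := g0 (x + h)
      rw [e3, inner_smul_right, real_inner_comm] at this
      linarith
    have s4 : φ x - t * inner ℝ e (T₀ x) ≤ φ (x + (-h)) := by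
      have := g0 (x + (-h))
      rw [e4, inner_neg_right, inner_smul_right, real_inner_comm] at this
      linarith
    have c1 : inner ℝ x (T₁ x) + t * inner ℝ e (T₁ x) ≤ φ (x + h) + ψ (T₁ x) := by
      have := hφψ _ hx₁' (T₁ x)
      rwa [inner_add_left, hh, real_inner_smul_left] at this
    have c2 : inner ℝ x (T₁ x) - t * inner ℝ e (T₁ x) ≤ φ (x + (-h)) + ψ (T₁ x) := by
      have := hφψ _ hx₂' (T₁ x)
      rwa [inner_add_left, inner_neg_left, hh, real_inner_smul_left, ← sub_eq_add_neg] at this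
    have key := stencil_pointwise (t := t) (a := inner ℝ e (T₁ x))
      (b := inner ℝ e (T₀ (x + h))) (c := inner ℝ e (T₀ x)) (d' := inner ℝ e (T₀ (x + (-h))))
      (G := G x) ht
      (by simp only [hG]; linarith)
      (by simp only [hG]; linarith)
      (by
        have : 0 ≤ t * (inner ℝ e (T₀ (x + h)) - inner ℝ e (T₀ x)) := by linarith
        exact (mul_nonneg_iff_of_pos_left ht).mp this)
      (by
        have : 0 ≤ t * (inner ℝ e (T₀ x) - inner ℝ e (T₀ (x + (-h)))) := by linarith
        exact (mul_nonneg_iff_of_pos_left ht).mp this)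
    simp only [hu, inner_sub_right]
    exact key
  -- integrability
  have hGA : IntegrableOn G A volume := hGint.mono_set hAK
  have hfs : ∀ k : EuclideanSpace ℝ (Fin d),
      IntegrableOn (fun x => f (x + k)) A volume := by
    intro k
    exact Measure.integrableOn_of_bounded hAfin
      (hfm.comp (measurable_add_const k)).aestronglyMeasurable (M := R)
      (Eventually.of_forall fun x => by simpa [Real.norm_eq_abs] using hfb (x + k))
  have huA : IntegrableOn u A volume := huint.mono_set hAK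
  -- integrate the pointwise inequality
  have hstep : t * ∫ x in A, u x ≤ (∫ x in A, G x) +
      t * ((∫ x in A, f (x + h)) - ∫ x in A, f (x + (-h))) := by
    have hI2 : Integrable (fun x => t * (f (x + h) - f (x + (-h)))) (volume.restrict A) :=
      ((hfs h).sub (hfs (-h))).const_mul t
    have h1 : ∫ x in A, t * u x ≤ ∫ x in A, (G x + t * (f (x + h) - f (x + (-h)))) :=
      integral_mono_ae (huA.const_mul t) (hGA.add hI2) hpt
    rw [integral_const_mul] at h1
    have hRHS : ∫ x in A, (G x + t * (f (x + h) - f (x + (-h)))) =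
        (∫ x in A, G x) + t * ((∫ x in A, f (x + h)) - ∫ x in A, f (x + (-h))) := by
      rw [integral_add hGA hI2, integral_const_mul, integral_sub (hfs h) (hfs (-h))]
    rw [hRHS] at h1
    exact h1
  -- replace `A` by `K` in the integral of `G`
  have hGle : ∫ x in A, G x ≤ ∫ x in K, G x :=
    setIntegral_mono_set hGint
      ((ae_restrict_iff' hKm).mpr (Eventually.of_forall hGnn))
      (Eventually.of_forall hAK)
  set a : ℝ := (volume (K \ A)).toReal with ha
  have ha0 : 0 ≤ a := ENNReal.toReal_nonneg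
  -- the shifted integrals
  have hs1 := abs_setIntegral_shift_sub_le hKfin hAm hAK h (fun x hx => hx.2.1) hfm hfb
  have hs2 := abs_setIntegral_shift_sub_le hKfin hAm hAK (-h) (fun x hx => hx.2.2) hfm hfb
  have hshift : (∫ x in A, f (x + h)) - ∫ x in A, f (x + (-h)) ≤ 2 * R * a := by
    have := abs_le.mp hs1
    have := abs_le.mp hs2
    linarith [(abs_le.mp hs1).2, (abs_le.mp hs2).1]
  -- the integral of `u` outside of `A`
  have hout : ∫ x in K \ A, u x ≤ 2 * R * a := by
    have hfin' : volume (K \ A) < ∞ :=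
      lt_top_iff_ne_top.mpr (ne_top_of_le_ne_top hKfin (measure_mono sdiff_subset))
    have := norm_setIntegral_le_of_norm_le_const (μ := volume) (s := K \ A) (f := u)
      (C := 2 * R) hfin' (fun x _ => hub x)
    exact (le_abs_self _).trans (by simpa [Measure.real, ha] using this)
  have hsplit : ∫ x in K, u x = (∫ x in A, u x) + ∫ x in K \ A, u x := by
    rw [setIntegral_sdiff hAm huint hAK]; ring
  -- the volume of `K \ A`
  have hvol : a ≤ 2 * (d * t / r) * (volume K).toReal := by
    have hsubset : K \ A ⊆ (K \ A₁) ∪ (K \ A₂) := by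
      intro x hx
      by_cases h1 : x ∈ A₁
      · by_cases h2 : x ∈ A₂
        · exact absurd ⟨hx.1, h1, h2⟩ hx.2
        · exact Or.inr ⟨hx.1, h2⟩
      · exact Or.inl ⟨hx.1, h1⟩
    have e1 := volume_sdiff_translate_le hK hconv hr hball h
    have e2 := volume_sdiff_translate_le hK hconv hr hball (-h)
    rw [hnorm] at e1
    rw [hnorm'] at e2
    have h2 : volume (K \ A) ≤ ENNReal.ofReal (2 * (d * t / r) * (volume K).toReal) := by
      calc volume (K \ A) ≤ volume ((K \ A₁) ∪ (K \ A₂)) := measure_mono hsubset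
        _ ≤ volume (K \ A₁) + volume (K \ A₂) := measure_union_le _ _
        _ ≤ ENNReal.ofReal (d * t / r) * volume K + ENNReal.ofReal (d * t / r) * volume K :=
            add_le_add e1 e2
        _ = ENNReal.ofReal (2 * (d * t / r) * (volume K).toReal) := by
            have hnn : 0 ≤ (d : ℝ) * t / r := by positivity
            rw [ENNReal.ofReal_mul (by positivity), ENNReal.ofReal_mul (by norm_num),
              ENNReal.ofReal_toReal hKfin, ← two_mul]
            simp [mul_assoc]
    have := ENNReal.toReal_le_of_le_ofReal (by positivity) h2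
    exact this
  -- conclusion
  have hfinal : t * ∫ x in K, u x ≤ (∫ x in K, G x) + t * (2 * R * a) + t * (2 * R * a) := by
    rw [hsplit, mul_add]
    have h1 := mul_le_mul_of_nonneg_left hshift ht.le
    have h2 := mul_le_mul_of_nonneg_left hout ht.le
    linarith
  have hlast : t * (2 * R * a) + t * (2 * R * a) ≤ 8 * R * d * (volume K).toReal / r * t ^ 2 := by
    have h1 : 4 * R * t * a ≤ 4 * R * t * (2 * (d * t / r) * (volume K).toReal) :=
      mul_le_mul_of_nonneg_left hvol (by positivity)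
    have h2 : 4 * R * t * (2 * (d * t / r) * (volume K).toReal) =
        8 * R * d * (volume K).toReal / r * t ^ 2 := by
      field_simp
      ring
    linarith
  linarith

end Vale.Agent.Lib.P074
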