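import Mathlib
import Vale.Agent.Lib.P074.Defs
import Vale.Agent.Lib.P074.Q.Stencil
import Vale.Agent.Lib.P074.Q.Cyclic
import Vale.Agent.Lib.P074.Q.Potential
import Vale.Agent.Lib.P074.Q.Dual

open MeasureTheory Metric Set Filter Topology
open scoped ENNReal NNReal

namespace Vale.Agent.Lib.P074

variable {d : ℕ}

/-- An almost everywhere modification of an optimal map is optimal. -/
theorem optimal_modify {ρ μ : Measure (EuclideanSpace ℝ (Fin d))}
    {T S : EuclideanSpace ℝ (Fin d) → EuclideanSpace ℝ (Fin d)}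
    (hT : IsOptimalMap ρ μ T) (hS : Measurable S) (hae : S =ᵐ[ρ] T) : IsOptimalMap ρ μ S := by
  refine ⟨hS, ?_, ?_⟩
  · rw [← hT.2.1]
    exact Measure.map_congr hae
  · intro S' hS' hmap
    have : quadCost ρ S = quadCost ρ T := by
      unfold quadCost
      apply lintegral_congr_ae
      filter_upwards [hae] with x hx
      rw [hx]
    rw [this]
    exact hT.2.2 S' hS' hmap

/-- The dual pair attached to an optimal map with values in a compact set. -/
theorem exists_dual_pair {K Y : Set (EuclideanSpace ℝ (Fin d))} (hK : IsCompact K)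
    (hconv : Convex ℝ K) (hint : (interior K).Nonempty) (hY : IsCompact Y)
    {μ : Measure (EuclideanSpace ℝ (Fin d))}
    {T : EuclideanSpace ℝ (Fin d) → EuclideanSpace ℝ (Fin d)}
    (hT : IsOptimalMap (uniformProb K) μ T) (hTY : ∀ x, T x ∈ Y) {R L : ℝ}
    (hR : ∀ y ∈ Y, ‖y‖ ≤ R) (hL : ∀ x ∈ K, ‖x‖ ≤ L) :
    ∃ φ ψ : EuclideanSpace ℝ (Fin d) → ℝ, Continuous φ ∧ (∀ a b, ψ a - ψ b ≤ L * ‖a - b‖) ∧
      (∀ x ∈ K, ∀ y, inner ℝ x y ≤ φ x + ψ y) ∧
      (∀ᵐ x ∂(volume.restrict K), φ x + ψ (T x) = inner ℝ x (T x)) ∧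
      (∀ᵐ x ∂(volume.restrict K), ∀ z, φ x + inner ℝ (T x) (z - x) ≤ φ z) := by
  obtain ⟨E, hEae, hcyc⟩ := cyclic_ae hK hconv hint hY hT hTY
  have hKpos : volume K ≠ 0 := by
    have h1 : volume (interior K) ≠ 0 := (isOpen_interior.measure_pos volume hint).ne'
    intro h0
    exact h1 (measure_mono_null interior_subset h0)
  have hne0 : (volume.restrict K) ≠ 0 := by
    intro h0
    apply hKpos
    have := Measure.restrict_apply_univ (μ := volume) K
    rw [h0] at this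
    simpa using this.symm
  have hE'ae : ∀ᵐ x ∂(volume.restrict K), x ∈ E ∧ x ∈ K := by
    filter_upwards [hEae, ae_restrict_mem hK.measurableSet] with x h1 h2
    exact ⟨h1, h2⟩
  have : (ae (volume.restrict K)).NeBot := ae_neBot.2 hne0
  obtain ⟨x₀, hx₀⟩ := hE'ae.exists
  have hKne : K.Nonempty := ⟨x₀, hx₀.2⟩
  obtain ⟨φ, hφc, hφ⟩ := exists_potential (E := E ∩ K) (T := T) (R := R) ⟨x₀, hx₀.1, hx₀.2⟩
    (fun x _ => hR _ (hTY x))
    (fun n x σ hinj hx => hcyc n x σ hinj (fun i => (hx i).1))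
  obtain ⟨ψ, hψL, hψ1, hψ2⟩ := exists_legendre hK hKne hφc hL
  refine ⟨φ, ψ, hφc, hψL, hψ1, ?_, ?_⟩
  · filter_upwards [hE'ae] with x hx
    exact hψ2 x hx.2 (T x) (fun z _ => hφ x ⟨hx.1, hx.2⟩ z)
  · filter_upwards [hE'ae] with x hx z
    exact hφ x ⟨hx.1, hx.2⟩ z

/-- Integrability of a bounded measurable function on a set of finite measure. -/
theorem integrableOn_of_bdd_compact {K : Set (EuclideanSpace ℝ (Fin d))} (hK : IsCompact K)
    {f : EuclideanSpace ℝ (Fin d) → ℝ} (hf : Measurable f) {M : ℝ} (hM : ∀ x ∈ K, |f x| ≤ M) :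
    IntegrableOn f K := by
  refine Measure.integrableOn_of_bounded hK.measure_lt_top.ne hf.aestronglyMeasurable (M := M) ?_
  filter_upwards [ae_restrict_mem hK.measurableSet] with x hx
  simpa using hM x hx

/-- Integration against the uniform measure. -/
theorem integral_uniformProb (K : Set (EuclideanSpace ℝ (Fin d)))
    (f : EuclideanSpace ℝ (Fin d) → ℝ) :
    ∫ x, f x ∂(uniformProb K) = ((volume K).toReal)⁻¹ * ∫ x in K, f x := by
  unfold uniformProb
  rw [integral_smul_measure, smul_eq_mul, ENNReal.toReal_inv]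

/-- The core inequality for two optimal maps with values in `Y`. -/
theorem core_estimate {K Y : Set (EuclideanSpace ℝ (Fin d))} (hK : IsCompact K)
    (hconv : Convex ℝ K) (hint : (interior K).Nonempty) (hY : IsCompact Y)
    {c : EuclideanSpace ℝ (Fin d)} {r : ℝ} (hr : 0 < r) (hball : closedBall c r ⊆ K)
    {μ ν : Measure (EuclideanSpace ℝ (Fin d))} [IsProbabilityMeasure μ] [IsProbabilityMeasure ν]
    (hμY : μ Yᶜ = 0) (hνY : ν Yᶜ = 0)
    {T₀ T₁ : EuclideanSpace ℝ (Fin d) → EuclideanSpace ℝ (Fin d)}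
    (hT₀ : IsOptimalMap (uniformProb K) μ T₀) (hT₁ : IsOptimalMap (uniformProb K) ν T₁)
    (hT₀Y : ∀ x, T₀ x ∈ Y) (hT₁Y : ∀ x, T₁ x ∈ Y) {R L : ℝ} (hR0 : 0 ≤ R) (hL0 : 0 ≤ L)
    (hR : ∀ y ∈ Y, ‖y‖ ≤ R) (hL : ∀ x ∈ K, ‖x‖ ≤ L) (hW : W2 μ ν ≠ ∞) {t : ℝ} (ht : 0 < t) :
    t * ∫ x in K, ‖T₀ x - T₁ x‖ ^ 2 ≤
      2 * R * d * (2 * L * (volume K).toReal * (W2 μ ν).toReal +
        8 * R * d * (volume K).toReal / r * t ^ 2) := by
  classical
  obtain ⟨φ₀, ψ₀, hφ₀c, hψ₀L, hG₀, hEq₀, hsub₀⟩ := exists_dual_pair hK hconv hint hY hT₀ hT₀Y hR hL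
  obtain ⟨φ₁, ψ₁, hφ₁c, hψ₁L, hG₁, hEq₁, hsub₁⟩ := exists_dual_pair hK hconv hint hY hT₁ hT₁Y hR hL
  have hψc : ∀ ψ : EuclideanSpace ℝ (Fin d) → ℝ, (∀ a b, ψ a - ψ b ≤ L * ‖a - b‖) → Continuous ψ := by
    intro ψ hψ
    have : LipschitzWith (Real.toNNReal L) ψ := by
      apply LipschitzWith.of_dist_le_mul
      intro a b
      rw [Real.dist_eq, Real.coe_toNNReal L hL0, dist_eq_norm, abs_le]
      constructor
      · have := hψ b a
        rw [norm_sub_rev] at this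
        linarith
      · exact hψ a b
    exact this.continuous
  have hψ₀c := hψc ψ₀ hψ₀L
  have hψ₁c := hψc ψ₁ hψ₁L
  set V : ℝ := (volume K).toReal with hV
  have hV0 : 0 ≤ V := ENNReal.toReal_nonneg
  have hVfin : volume K ≠ ∞ := hK.measure_lt_top.ne
  have hVpos : 0 < V := by
    have h1 : 0 < volume (interior K) := isOpen_interior.measure_pos volume hint
    have h2 : 0 < volume K := lt_of_lt_of_le h1 (measure_mono interior_subset)
    exact ENNReal.toReal_pos h2.ne' hVfin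
  set w : ℝ := (W2 μ ν).toReal with hw
  have hT₀m := hT₀.1
  have hT₁m := hT₁.1
  -- the function g
  set g : EuclideanSpace ℝ (Fin d) → ℝ := fun y => ψ₀ y - ψ₁ y with hg
  have hgc : Continuous g := hψ₀c.sub hψ₁c
  have hgL : ∀ a b, g a - g b ≤ 2 * L * ‖a - b‖ := by
    intro a b
    have h1 := hψ₀L a b
    have h2 := hψ₁L b a
    rw [norm_sub_rev] at h2
    simp only [hg]
    linarith
  have hdual := integral_sub_le_W2 hY hμY hνY (g := g) (L := 2 * L) (by positivity) hgL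
  have hdual' : (∫ y, g y ∂ν) - ∫ y, g y ∂μ ≤ 2 * L * w := by
    have h2L : (0 : ℝ) ≤ 2 * L := by positivity
    have := ENNReal.toReal_mono (ENNReal.mul_ne_top ENNReal.ofReal_ne_top hW) hdual
    rw [ENNReal.toReal_mul, ENNReal.toReal_ofReal h2L, ENNReal.toReal_ofReal'] at this
    exact le_trans (le_max_left _ _) this
  -- bounds
  obtain ⟨Mφ₀, hMφ₀⟩ := hK.exists_bound_of_continuousOn hφ₀c.continuousOn
  obtain ⟨Mφ₁, hMφ₁⟩ := hK.exists_bound_of_continuousOn hφ₁c.continuousOn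
  obtain ⟨Mψ₀, hMψ₀⟩ := hY.exists_bound_of_continuousOn hψ₀c.continuousOn
  obtain ⟨Mψ₁, hMψ₁⟩ := hY.exists_bound_of_continuousOn hψ₁c.continuousOn
  have hinner : ∀ x ∈ K, ∀ y ∈ Y, |inner ℝ x y| ≤ L * R := by
    intro x hx y hy
    calc |inner ℝ x y| ≤ ‖x‖ * ‖y‖ := abs_real_inner_le_norm x y
      _ ≤ L * R := mul_le_mul (hL x hx) (hR y hy) (norm_nonneg _) hL0
  -- gaps
  set G₀ : EuclideanSpace ℝ (Fin d) → ℝ := fun x => φ₀ x + ψ₀ (T₁ x) - inner ℝ x (T₁ x) with hG₀def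
  set G₁ : EuclideanSpace ℝ (Fin d) → ℝ := fun x => φ₁ x + ψ₁ (T₀ x) - inner ℝ x (T₀ x) with hG₁def
  have hG₀m : Measurable G₀ := by
    apply Measurable.sub
    · exact hφ₀c.measurable.add (hψ₀c.measurable.comp hT₁m)
    · exact measurable_id.inner hT₁m
  have hG₁m : Measurable G₁ := by
    apply Measurable.sub
    · exact hφ₁c.measurable.add (hψ₁c.measurable.comp hT₀m)
    · exact measurable_id.inner hT₀m
  have hG₀int : IntegrableOn G₀ K := by
    apply integrableOn_of_bdd_compact hK hG₀m (M := Mφ₀ + Mψ₀ + L * R)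
    intro x hx
    have h1 := hMφ₀ x hx
    have h2 := hMψ₀ (T₁ x) (hT₁Y x)
    have h3 := hinner x hx (T₁ x) (hT₁Y x)
    rw [Real.norm_eq_abs] at h1 h2
    simp only [hG₀def]
    rw [abs_le] at *
    constructor <;> linarith [h1.1, h1.2, h2.1, h2.2, h3.1, h3.2]
  have hG₁int : IntegrableOn G₁ K := by
    apply integrableOn_of_bdd_compact hK hG₁m (M := Mφ₁ + Mψ₁ + L * R)
    intro x hx
    have h1 := hMφ₁ x hx
    have h2 := hMψ₁ (T₀ x) (hT₀Y x)
    have h3 := hinner x hx (T₀ x) (hT₀Y x)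
    rw [Real.norm_eq_abs] at h1 h2
    simp only [hG₁def]
    rw [abs_le] at *
    constructor <;> linarith [h1.1, h1.2, h2.1, h2.2, h3.1, h3.2]
  have hgT₀ : IntegrableOn (fun x => g (T₀ x)) K := by
    apply integrableOn_of_bdd_compact hK (hgc.measurable.comp hT₀m) (M := Mψ₀ + Mψ₁)
    intro x _
    have h2 := abs_le.1 ((Real.norm_eq_abs _).symm.trans_le (hMψ₀ (T₀ x) (hT₀Y x)))
    have h3 := abs_le.1 ((Real.norm_eq_abs _).symm.trans_le (hMψ₁ (T₀ x) (hT₀Y x)))
    simp only [hg, Function.comp]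
    rw [abs_le]
    constructor <;> linarith [h2.1, h2.2, h3.1, h3.2]
  have hgT₁ : IntegrableOn (fun x => g (T₁ x)) K := by
    apply integrableOn_of_bdd_compact hK (hgc.measurable.comp hT₁m) (M := Mψ₀ + Mψ₁)
    intro x _
    have h2 := abs_le.1 ((Real.norm_eq_abs _).symm.trans_le (hMψ₀ (T₁ x) (hT₁Y x)))
    have h3 := abs_le.1 ((Real.norm_eq_abs _).symm.trans_le (hMψ₁ (T₁ x) (hT₁Y x)))
    simp only [hg, Function.comp]
    rw [abs_le]
    constructor <;> linarith [h2.1, h2.2, h3.1, h3.2]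
  -- the key identity
  have hkey : ∫ x in K, (G₀ x + G₁ x) = (∫ x in K, g (T₁ x)) - ∫ x in K, g (T₀ x) := by
    rw [← integral_sub hgT₁ hgT₀]
    apply integral_congr_ae
    filter_upwards [hEq₀, hEq₁] with x h0 h1
    simp only [hG₀def, hG₁def, hg]
    linarith
  have hμint : ∫ y, g y ∂μ = V⁻¹ * ∫ x in K, g (T₀ x) := by
    rw [← hT₀.2.1, integral_map hT₀m.aemeasurable hgc.aestronglyMeasurable, integral_uniformProb]
  have hνint : ∫ y, g y ∂ν = V⁻¹ * ∫ x in K, g (T₁ x) := by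
    rw [← hT₁.2.1, integral_map hT₁m.aemeasurable hgc.aestronglyMeasurable, integral_uniformProb]
  have hD : ∫ x in K, (G₀ x + G₁ x) ≤ 2 * L * V * w := by
    rw [hkey]
    rw [hμint, hνint] at hdual'
    have : (∫ x in K, g (T₁ x)) - ∫ x in K, g (T₀ x) =
        V * (V⁻¹ * (∫ x in K, g (T₁ x)) - V⁻¹ * ∫ x in K, g (T₀ x)) := by
      field_simp
    rw [this]
    calc V * (V⁻¹ * (∫ x in K, g (T₁ x)) - V⁻¹ * ∫ x in K, g (T₀ x)) ≤ V * (2 * L * w) :=
          mul_le_mul_of_nonneg_left hdual' hV0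
      _ = 2 * L * V * w := by ring
  have hG₁nn : ∀ᵐ x ∂(volume.restrict K), 0 ≤ G₁ x := by
    filter_upwards [ae_restrict_mem hK.measurableSet] with x hx
    have := hG₁ x hx (T₀ x)
    simp only [hG₁def]
    linarith
  have hG₀le : ∫ x in K, G₀ x ≤ 2 * L * V * w := by
    refine le_trans ?_ hD
    apply integral_mono_ae hG₀int (hG₀int.add hG₁int)
    filter_upwards [hG₁nn] with x hx
    simp only [Pi.add_apply]
    linarith
  -- the stencil, coordinate by coordinate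
  have hT₀R : ∀ x, ‖T₀ x‖ ≤ R := fun x => hR _ (hT₀Y x)
  have hT₁R : ∀ x, ‖T₁ x‖ ≤ R := fun x => hR _ (hT₁Y x)
  have hcoord : ∀ i : Fin d, ∀ x, (T₁ x - T₀ x) i =
      inner ℝ (EuclideanSpace.single i (1 : ℝ)) (T₁ x - T₀ x) := by
    intro i x
    simp [EuclideanSpace.inner_single_left]
  have hsten : ∀ i : Fin d, t * ∫ x in K, |(T₁ x - T₀ x) i| ≤
      2 * L * V * w + 8 * R * d * V / r * t ^ 2 := by
    intro i
    have hs := stencil_bound hK hconv hr hball hT₀m hT₁m hT₀R hT₁R hφ₀c hψ₀c hG₀ hsub₀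
      (e := EuclideanSpace.single i (1 : ℝ)) (by simp) ht
    have heq : (fun x => |(T₁ x - T₀ x) i|) =
        fun x => |inner ℝ (EuclideanSpace.single i (1 : ℝ)) (T₁ x - T₀ x)| := by
      funext x
      rw [hcoord]
    rw [heq]
    refine le_trans hs ?_
    exact add_le_add_left hG₀le _
  -- from L¹ of the coordinates to L²
  have hvm : Measurable (fun x => T₁ x - T₀ x) := hT₁m.sub hT₀m
  have hv2R : ∀ x, ‖T₁ x - T₀ x‖ ≤ 2 * R := by
    intro x
    calc ‖T₁ x - T₀ x‖ ≤ ‖T₁ x‖ + ‖T₀ x‖ := norm_sub_le _ _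
      _ ≤ 2 * R := by linarith [hT₀R x, hT₁R x]
  have hcm : ∀ i : Fin d, Measurable (fun x => (T₁ x - T₀ x) i) := by
    intro i
    exact (by fun_prop : Measurable (fun v : EuclideanSpace ℝ (Fin d) => v i)).comp hvm
  have hcb : ∀ i : Fin d, ∀ x, |(T₁ x - T₀ x) i| ≤ 2 * R := by
    intro i x
    calc |(T₁ x - T₀ x) i| ≤ ‖T₁ x - T₀ x‖ := by
          simpa using PiLp.norm_apply_le (T₁ x - T₀ x) i
      _ ≤ 2 * R := hv2R x
  have hci : ∀ i : Fin d, IntegrableOn (fun x => |(T₁ x - T₀ x) i|) K := by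
    intro i
    apply integrableOn_of_bdd_compact hK (hcm i).abs (M := 2 * R)
    intro x _
    rw [abs_abs]
    exact hcb i x
  have hsq : ∀ x, ‖T₀ x - T₁ x‖ ^ 2 ≤ ∑ i : Fin d, 2 * R * |(T₁ x - T₀ x) i| := by
    intro x
    rw [norm_sub_rev, EuclideanSpace.norm_sq_eq]
    apply Finset.sum_le_sum
    intro i _
    rw [Real.norm_eq_abs, sq]
    exact mul_le_mul_of_nonneg_right (hcb i x) (abs_nonneg _)
  have hnormm : Measurable (fun x => ‖T₀ x - T₁ x‖ ^ 2) := ((hT₀m.sub hT₁m).norm).pow_const 2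
  have hnormint : IntegrableOn (fun x => ‖T₀ x - T₁ x‖ ^ 2) K := by
    apply integrableOn_of_bdd_compact hK hnormm (M := (2 * R) ^ 2)
    intro x _
    rw [abs_of_nonneg (by positivity), norm_sub_rev]
    exact pow_le_pow_left₀ (norm_nonneg _) (hv2R x) 2
  have hsumint : IntegrableOn (fun x => ∑ i : Fin d, 2 * R * |(T₁ x - T₀ x) i|) K :=
    integrable_finsetSum _ (fun i _ => (hci i).const_mul _)
  have hint1 : ∫ x in K, ‖T₀ x - T₁ x‖ ^ 2 ≤
      ∑ i : Fin d, 2 * R * ∫ x in K, |(T₁ x - T₀ x) i| := by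
    calc ∫ x in K, ‖T₀ x - T₁ x‖ ^ 2 ≤ ∫ x in K, ∑ i : Fin d, 2 * R * |(T₁ x - T₀ x) i| :=
          integral_mono hnormint hsumint hsq
      _ = ∑ i : Fin d, 2 * R * ∫ x in K, |(T₁ x - T₀ x) i| := by
          rw [integral_finsetSum _ (fun i _ => (hci i).const_mul _)]
          simp only [integral_const_mul]
  calc t * ∫ x in K, ‖T₀ x - T₁ x‖ ^ 2
      ≤ t * ∑ i : Fin d, 2 * R * ∫ x in K, |(T₁ x - T₀ x) i| :=
        mul_le_mul_of_nonneg_left hint1 ht.le
    _ = ∑ i : Fin d, 2 * R * (t * ∫ x in K, |(T₁ x - T₀ x) i|) := by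
        rw [Finset.mul_sum]
        apply Finset.sum_congr rfl
        intro i _
        ring
    _ ≤ ∑ _i : Fin d, 2 * R * (2 * L * V * w + 8 * R * d * V / r * t ^ 2) := by
        apply Finset.sum_le_sum
        intro i _
        exact mul_le_mul_of_nonneg_left (hsten i) (by positivity)
    _ = 2 * R * d * (2 * L * V * w + 8 * R * d * V / r * t ^ 2) := by
        rw [Finset.sum_const, Finset.card_univ, Fintype.card_fin, nsmul_eq_mul]
        ring

/-- From the family of inequalities in `t` to the square root bound. -/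
theorem le_sqrt_of_forall_mul_le {J A B w : ℝ} (hB : 0 ≤ B) (hw : 0 ≤ w)
    (h : ∀ t : ℝ, 0 < t → t * J ≤ A * w + B * t ^ 2) : J ≤ (A + B) * Real.sqrt w := by
  rcases hw.eq_or_lt with h0 | hpos
  · subst h0
    simp only [Real.sqrt_zero, mul_zero, zero_add] at h ⊢
    by_contra hJ
    push Not at hJ
    have ht : 0 < J / (2 * (B + 1)) := by positivity
    have := h _ ht
    have h2 : B * (J / (2 * (B + 1))) ^ 2 < (J / (2 * (B + 1))) * J := by
      have hb1 : 0 < B + 1 := by positivity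
      have : (J / (2 * (B + 1))) * J - B * (J / (2 * (B + 1))) ^ 2 =
          J ^ 2 * (B + 2) / (4 * (B + 1) ^ 2) := by
        field_simp
        ring
      have hpos : 0 < J ^ 2 * (B + 2) / (4 * (B + 1) ^ 2) := by positivity
      linarith
    linarith
  · have hs : 0 < Real.sqrt w := Real.sqrt_pos.2 hpos
    have h1 := h (Real.sqrt w) hs
    have hsq : Real.sqrt w ^ 2 = w := Real.sq_sqrt hw
    rw [hsq] at h1
    have h2 : Real.sqrt w * J ≤ Real.sqrt w * ((A + B) * Real.sqrt w) := by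
      have : Real.sqrt w * ((A + B) * Real.sqrt w) = (A + B) * Real.sqrt w ^ 2 := by ring
      rw [this, hsq]
      linarith
    exact le_of_mul_le_mul_left h2 hs

/-- The exponent `1/4` is admissible in every dimension. -/
theorem admissible_quarter (d : ℕ) : Admissible d (1 / 4) := by
  classical
  intro K hK hconv hint Y hY hYne
  obtain ⟨c, hc⟩ := hint
  have hint' : (interior K).Nonempty := ⟨c, hc⟩
  obtain ⟨r, hr, hball⟩ : ∃ r : ℝ, 0 < r ∧ closedBall c r ⊆ K := by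
    have : K ∈ 𝓝 c := mem_interior_iff_mem_nhds.1 hc
    exact Metric.nhds_basis_closedBall.mem_iff.1 this
  obtain ⟨R, hR⟩ := hY.isBounded.exists_norm_le
  obtain ⟨L, hL⟩ := hK.isBounded.exists_norm_le
  obtain ⟨y₀, hy₀⟩ := hYne
  have hR0 : 0 ≤ R := (norm_nonneg _).trans (hR y₀ hy₀)
  have hL0 : 0 ≤ L := (norm_nonneg _).trans (hL c (interior_subset hc))
  set V : ℝ := (volume K).toReal with hV
  have hVfin : volume K ≠ ∞ := hK.measure_lt_top.ne
  have hVpos : 0 < V := by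
    have h1 : 0 < volume (interior K) := isOpen_interior.measure_pos volume ⟨c, hc⟩
    have h2 : 0 < volume K := lt_of_lt_of_le h1 (measure_mono interior_subset)
    exact ENNReal.toReal_pos h2.ne' hVfin
  set A : ℝ := 2 * R * d * (2 * L * V) with hA
  set B : ℝ := 2 * R * d * (8 * R * d * V / r) with hB
  have hA0 : 0 ≤ A := by positivity
  have hB0 : 0 ≤ B := by positivity
  set C₀ : ℝ := V⁻¹ * (A + B) with hC₀
  have hC₀0 : 0 ≤ C₀ := by positivity
  refine ⟨Real.toNNReal (C₀ ^ (1 / 2 : ℝ)) + 1, ?_⟩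
  intro μ ν hμ hν hμY hνY Tμ Tν hTμ hTν
  by_cases hW : W2 μ ν = ∞
  · rw [hW, ENNReal.top_rpow_of_pos (by norm_num), ENNReal.mul_top (by simp)]
    exact le_top
  -- modifications of the maps
  set T₀ : EuclideanSpace ℝ (Fin d) → EuclideanSpace ℝ (Fin d) :=
    fun x => if Tμ x ∈ Y then Tμ x else y₀ with hT₀def
  set T₁ : EuclideanSpace ℝ (Fin d) → EuclideanSpace ℝ (Fin d) :=
    fun x => if Tν x ∈ Y then Tν x else y₀ with hT₁def
  have hYm : MeasurableSet Y := hY.measurableSet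
  have hT₀m : Measurable T₀ :=
    Measurable.ite (hTμ.1 hYm) hTμ.1 measurable_const
  have hT₁m : Measurable T₁ :=
    Measurable.ite (hTν.1 hYm) hTν.1 measurable_const
  have hT₀Y : ∀ x, T₀ x ∈ Y := by
    intro x
    simp only [hT₀def]
    split_ifs with h
    · exact h
    · exact hy₀
  have hT₁Y : ∀ x, T₁ x ∈ Y := by
    intro x
    simp only [hT₁def]
    split_ifs with h
    · exact h
    · exact hy₀
  have hae₀ : T₀ =ᵐ[uniformProb K] Tμ := by
    have h1 : (uniformProb K) (Tμ ⁻¹' Yᶜ) = 0 := by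
      rw [← Measure.map_apply hTμ.1 hYm.compl, hTμ.2.1]
      exact hμY
    have h2 : ∀ᵐ x ∂(uniformProb K), Tμ x ∈ Y := by
      rw [ae_iff]
      exact h1
    filter_upwards [h2] with x hx
    simp only [hT₀def, if_pos hx]
  have hae₁ : T₁ =ᵐ[uniformProb K] Tν := by
    have h1 : (uniformProb K) (Tν ⁻¹' Yᶜ) = 0 := by
      rw [← Measure.map_apply hTν.1 hYm.compl, hTν.2.1]
      exact hνY
    have h2 : ∀ᵐ x ∂(uniformProb K), Tν x ∈ Y := by
      rw [ae_iff]
      exact h1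
    filter_upwards [h2] with x hx
    simp only [hT₁def, if_pos hx]
  have hopt₀ := optimal_modify hTμ hT₀m hae₀
  have hopt₁ := optimal_modify hTν hT₁m hae₁
  set w : ℝ := (W2 μ ν).toReal with hw
  have hw0 : 0 ≤ w := ENNReal.toReal_nonneg
  set J : ℝ := ∫ x in K, ‖T₀ x - T₁ x‖ ^ 2 with hJ
  have hJbound : J ≤ (A + B) * Real.sqrt w := by
    apply le_sqrt_of_forall_mul_le hB0 hw0
    intro t ht
    have := core_estimate hK hconv hint' hY hr hball hμY hνY hopt₀ hopt₁ hT₀Y hT₁Y hR0 hL0 hR hL hW ht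
    calc t * J ≤ _ := this
      _ = A * w + B * t ^ 2 := by
        simp only [hA, hB, hV, hw]
        ring
  have hJ0 : 0 ≤ J := integral_nonneg (fun x => by positivity)
  -- translate to the extended reals
  have hnormint : IntegrableOn (fun x => ‖T₀ x - T₁ x‖ ^ 2) K := by
    apply integrableOn_of_bdd_compact hK (((hT₀m.sub hT₁m).norm).pow_const 2) (M := (2 * R) ^ 2)
    intro x _
    rw [abs_of_nonneg (by positivity)]
    apply pow_le_pow_left₀ (norm_nonneg _)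
    calc ‖T₀ x - T₁ x‖ ≤ ‖T₀ x‖ + ‖T₁ x‖ := norm_sub_le _ _
      _ ≤ 2 * R := by linarith [hR _ (hT₀Y x), hR _ (hT₁Y x)]
  have hlin : ∫⁻ x, ENNReal.ofReal (‖Tμ x - Tν x‖ ^ 2) ∂(uniformProb K) =
      ENNReal.ofReal (V⁻¹ * J) := by
    have h1 : ∫⁻ x, ENNReal.ofReal (‖Tμ x - Tν x‖ ^ 2) ∂(uniformProb K) =
        ∫⁻ x, ENNReal.ofReal (‖T₀ x - T₁ x‖ ^ 2) ∂(uniformProb K) := by
      apply lintegral_congr_ae
      filter_upwards [hae₀, hae₁] with x h0 h1
      rw [h0, h1]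
    rw [h1]
    unfold uniformProb
    rw [lintegral_smul_measure, smul_eq_mul,
      ← ofReal_integral_eq_lintegral_ofReal hnormint
        (Filter.Eventually.of_forall (fun x => by positivity)),
      ENNReal.ofReal_mul (by positivity), ENNReal.ofReal_inv_of_pos hVpos, hV,
      ENNReal.ofReal_toReal hVfin]
  unfold L2Dist
  rw [hlin]
  have hWeq : W2 μ ν = ENNReal.ofReal w := (ENNReal.ofReal_toReal hW).symm
  rw [hWeq, ENNReal.ofReal_rpow_of_nonneg (by positivity) (by norm_num),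
    ENNReal.ofReal_rpow_of_nonneg hw0 (by norm_num)]
  have hmain : (V⁻¹ * J) ^ (1 / 2 : ℝ) ≤ C₀ ^ (1 / 2 : ℝ) * w ^ (1 / 4 : ℝ) := by
    have h1 : V⁻¹ * J ≤ C₀ * w ^ (1 / 2 : ℝ) := by
      rw [← Real.sqrt_eq_rpow, hC₀, mul_assoc]
      exact mul_le_mul_of_nonneg_left hJbound (by positivity)
    calc (V⁻¹ * J) ^ (1 / 2 : ℝ) ≤ (C₀ * w ^ (1 / 2 : ℝ)) ^ (1 / 2 : ℝ) :=
          Real.rpow_le_rpow (by positivity) h1 (by norm_num)
      _ = C₀ ^ (1 / 2 : ℝ) * w ^ (1 / 4 : ℝ) := by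
          rw [Real.mul_rpow hC₀0 (by positivity), ← Real.rpow_mul hw0]
          norm_num
  have hcoe : C₀ ^ (1 / 2 : ℝ) ≤ ((Real.toNNReal (C₀ ^ (1 / 2 : ℝ)) + 1 : ℝ≥0) : ℝ) := by
    push_cast
    rw [Real.coe_toNNReal _ (by positivity)]
    linarith
  calc ENNReal.ofReal ((V⁻¹ * J) ^ (1 / 2 : ℝ))
      ≤ ENNReal.ofReal (((Real.toNNReal (C₀ ^ (1 / 2 : ℝ)) + 1 : ℝ≥0) : ℝ) * w ^ (1 / 4 : ℝ)) := by
        apply ENNReal.ofReal_le_ofReal
        exact hmain.trans (mul_le_mul_of_nonneg_right hcoe (by positivity))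
    _ = _ := by
        rw [ENNReal.ofReal_mul (by positivity), ENNReal.ofReal_coe_nnreal]

end Vale.Agent.Lib.P074
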